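import Vale.Agent.P310.Lift2

namespace Vale.Agent.P310

open Function

structure Prog (P R : Type) (T : ℕ) (A : Type) where
  head : R → P
  body : R → Bool → P
  sh : R → Bool → Fin T → A
  goal : R → Prop
  test : P → Prop
  row : P → Fin T
  head_nt : ∀ ρ, ¬ test (head ρ)

abbrev Port := Option (Bool × Bool)

inductive Node (P R : Type) (M : ℕ)
  | rule (ρ : R)
  | tube (e : R × Port) (t : Fin M)
  | hub (p : P)

inductive Bit (P R : Type) (M : ℕ)
  | tube (e : R × Port) (t : Fin (M + 1))
  | val (p : P)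

inductive Eqn (P R : Type) (M : ℕ)
  | rule (ρ : R)
  | link (e : R × Port) (t : Fin (M + 1))
  | test (p : P)

variable {P R A : Type} {T M : ℕ}

instance [Finite P] [Finite R] : Finite (Node P R M) :=
  Finite.of_surjective (α := R ⊕ ((R × Port) × Fin M) ⊕ P)
    (Sum.elim .rule (Sum.elim (fun x => .tube x.1 x.2) .hub)) (by
      rintro (ρ | ⟨e, t⟩ | p)
      · exact ⟨.inl ρ, rfl⟩
      · exact ⟨.inr (.inl (e, t)), rfl⟩
      · exact ⟨.inr (.inr p), rfl⟩)

instance [Finite P] [Finite R] : Finite (Bit P R M) :=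
  Finite.of_surjective (α := ((R × Port) × Fin (M + 1)) ⊕ P)
    (Sum.elim (fun x => .tube x.1 x.2) .val) (by
      rintro (⟨e, t⟩ | p)
      · exact ⟨.inl (e, t), rfl⟩
      · exact ⟨.inr p, rfl⟩)

instance [Finite P] [Finite R] : Finite (Eqn P R M) :=
  Finite.of_surjective (α := R ⊕ ((R × Port) × Fin (M + 1)) ⊕ P)
    (Sum.elim .rule (Sum.elim (fun x => .link x.1 x.2) .test)) (by
      rintro (ρ | ⟨e, t⟩ | p)
      · exact ⟨.inl ρ, rfl⟩
      · exact ⟨.inr (.inl (e, t)), rfl⟩
      · exact ⟨.inr (.inr p), rfl⟩)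

theorem fin_ind [NeZero T] (p : Fin T → Prop) (h0 : p 0)
    (hs : ∀ i : Fin T, (i + 1).val = i.val + 1 → p i → p (i + 1)) (i : Fin T) : p i := by
  obtain ⟨n, hn⟩ := i
  induction n with
  | zero => exact h0
  | succ n ih =>
    have h1 : ((⟨n, by omega⟩ : Fin T) + 1).val = n + 1 := by
      rw [Fin.val_add, Fin.val_one', Nat.add_mod_mod]
      exact Nat.mod_eq_of_lt hn
    have h2 : (⟨n + 1, hn⟩ : Fin T) = (⟨n, by omega⟩ : Fin T) + 1 := Fin.ext h1.symm
    rw [h2]
    exact hs _ h1 (ih _)

namespace Prog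

variable [AddCommGroup A] (Pr : Prog P R T A)

def hub : R × Port → P
  | (ρ, none) => Pr.head ρ
  | (ρ, some (j, _)) => Pr.body ρ j

def ts : R × Port → Fin T → A
  | (_, none) => 0
  | (ρ, some (j, _)) => Pr.sh ρ j

def inc : Node P R M → Bit P R M → Prop
  | .rule ρ, .tube e t => e.1 = ρ ∧ t.val = 0
  | .tube e s, .tube e' t => e = e' ∧ (t.val = s.val ∨ t.val = s.val + 1)
  | .hub p, .tube e t => Pr.hub e = p ∧ t.val = M
  | .hub p, .val p' => p = p'
  | _, _ => False

def off : Node P R M → Bit P R M → Fin T → A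
  | .hub _, .tube e _ => - Pr.ts e
  | _, _ => 0

def loc : Eqn P R M → Node P R M
  | .rule ρ => .rule ρ
  | .link e t => if h : t.val < M then .tube e ⟨t.val, h⟩ else .hub (Pr.hub e)
  | .test p => .hub p

def up (e : R × Port) (t : Fin (M + 1)) : Bit P R M :=
  if h : t.val < M then .tube e ⟨t.val + 1, by omega⟩ else .val (Pr.hub e)

open Classical in
noncomputable def rsum (ρ : R) (v : Port → F2) : F2 :=
  (if Pr.goal ρ then 0 else v none) + (v (some (false, false)) + v (some (false, true)))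
    + (v (some (true, false)) + v (some (true, true)))

open Classical in
noncomputable def lhs0 : Eqn P R M → (Bit P R M → F2) → F2
  | .rule ρ, f => Pr.rsum ρ fun p => f (.tube (ρ, p) 0)
  | .link e t, f => f (.tube e t) + f (Pr.up e t)
  | .test p, f => if Pr.test p then f (.val p) else 0

open Classical in
noncomputable def cst : Eqn P R M → F2
  | .rule ρ => if Pr.goal ρ then 1 else 0
  | _ => 0

omit [AddCommGroup A] in
theorem inc_link (e : R × Port) (t : Fin (M + 1)) :
    Pr.inc (Pr.loc (.link e t)) (.tube e t) ∧ Pr.inc (Pr.loc (.link e t)) (Pr.up e t) := by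
  have := t.isLt
  by_cases h : t.val < M
  · simp [loc, up, h, inc]
  · simp only [loc, up, h, inc, dite_false, true_and, and_true]; omega

noncomputable def sys (M : ℕ) : Sys (Node P R M) (Bit P R M) (Eqn P R M) T A where
  inc := Pr.inc
  off := Pr.off
  loc := Pr.loc
  lhs q :=
    { toFun := Pr.lhs0 q
      map_add' := by
        intro f g
        cases q <;> simp only [lhs0, rsum, Pi.add_apply]
        · split_ifs <;> ring
        · ring
        · split_ifs <;> ring
      map_smul' := by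
        intro c f
        cases q <;> simp only [lhs0, rsum, Pi.smul_apply, smul_eq_mul, RingHom.id_apply]
        · split_ifs <;> ring
        · ring
        · split_ifs <;> ring }
  lhs_local := by
    intro q f g h
    cases q with
    | rule ρ =>
      have : (fun p => f (.tube (ρ, p) 0)) = fun p => g (.tube (ρ, p) 0) :=
        funext fun p => h _ ⟨rfl, rfl⟩
      exact congrArg (Pr.rsum ρ) this
    | link e t =>
      show f _ + f _ = g _ + g _
      rw [h _ (Pr.inc_link e t).1, h _ (Pr.inc_link e t).2]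
    | test p =>
      show Pr.lhs0 (.test p) f = Pr.lhs0 (.test p) g
      simp only [lhs0]
      rw [h (.val p) rfl]
  cst := Pr.cst

def pres (pass : P → A → A → Prop) : Eqn P R M → Fin T → A → A → Prop
  | .test p, i, a, b => i ≠ Pr.row p ∨ pass p a b
  | _, _, _, _ => True

variable [NeZero T]

structure Closed (pass : P → A → A → Prop) (Tr : P → (Fin T → A) → Prop) : Prop where
  rule : ∀ ρ u, ¬ Pr.goal ρ → (∀ j, Tr (Pr.body ρ j) (u + Pr.sh ρ j)) → Tr (Pr.head ρ) u
  test : ∀ p u, Pr.test p → pass p (u (Pr.row p)) (u (Pr.row p + 1)) → Tr p u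

section Spoiler

variable {Pr} {pass : P → A → A → Prop} (Φ : (Pr.sys M).Fam (Pr.pres pass))

def Forced (e : Bit P R M) (v : Fin T → A) : Prop :=
  ∀ w u, Pr.inc w e → u + Pr.off w e = v →
    ∀ α, Φ.M (Sys.col w u) α → ∑ i, (α i).1 e = 0

theorem forced_of (hT : 2 ≤ T) {e : Bit P R M} {w : Node P R M} {u : Fin T → A}
    (he : Pr.inc w e) (h : ∀ α, Φ.M (Sys.col w u) α → ∑ i, (α i).1 e = 0) :
    Forced Φ e (u + Pr.off w e) := fun _ _ he' hu =>
  Φ.transfer hT he he' hu.symm h

theorem forced_link (hT : 2 ≤ T) (e : R × Port) (t : Fin (M + 1)) (u : Fin T → A) :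
    Forced Φ (.tube e t) (u + Pr.off (Pr.loc (.link e t)) (.tube e t)) ↔
      Forced Φ (Pr.up e t) (u + Pr.off (Pr.loc (.link e t)) (Pr.up e t)) := by
  have key : ∀ α, Φ.M (Sys.col (Pr.loc (.link e t)) u) α →
      ∑ i, (α i).1 (.tube e t) + ∑ i, (α i).1 (Pr.up e t) = 0 := fun α hα =>
    Φ.node hα (q := .link e t) rfl fun _ => trivial
  constructor
  · intro h
    refine forced_of Φ hT (Pr.inc_link e t).2 fun α hα => ?_
    have := key α hα
    rwa [h _ _ (Pr.inc_link e t).1 rfl α hα, zero_add] at this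
  · intro h
    refine forced_of Φ hT (Pr.inc_link e t).1 fun α hα => ?_
    have := key α hα
    rwa [h _ _ (Pr.inc_link e t).2 rfl α hα, add_zero] at this

theorem forced_tube (hT : 2 ≤ T) (e : R × Port) (v : Fin T → A) (t : Fin (M + 1)) :
    Forced Φ (.tube e t) v ↔ Forced Φ (.val (Pr.hub e)) (v + Pr.ts e) := by
  induction t using Fin.reverseInduction with
  | last =>
    have := forced_link Φ hT e (Fin.last M) (v + Pr.ts e)
    simpa [loc, up, off] using this
  | cast t ih =>
    have := forced_link Φ hT e t.castSucc v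
    simp only [loc, up, Fin.val_castSucc, t.isLt, dite_true, off, add_zero] at this
    rw [this, ← ih]
    rfl

include Φ in
theorem spoiler (hT : 2 ≤ T) : ∃ Tr, Pr.Closed pass Tr ∧
    ∀ ρ u, Pr.goal ρ → ¬ ∀ j, Tr (Pr.body ρ j) (u + Pr.sh ρ j) := by
  have key : ∀ ρ u, (∀ j, Forced Φ (.val (Pr.body ρ j)) (u + Pr.sh ρ j)) →
      ∀ α, Φ.M (Sys.col (.rule ρ) u) α →
        Pr.rsum ρ (fun p => if p = none then ∑ i, (α i).1 (.tube (ρ, none) 0) else 0)
          = Pr.cst (.rule ρ : Eqn P R M) := by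
    intro ρ u h α hα
    have h1 : Pr.rsum ρ (fun p => ∑ i, (α i).1 (.tube (ρ, p) 0)) = Pr.cst (.rule ρ : Eqn P R M) :=
      Φ.node hα (q := .rule ρ) rfl fun _ => trivial
    rw [← h1]
    congr 1
    funext p
    rcases p with _ | ⟨j, s⟩
    · simp
    · simp only [reduceCtorEq, if_false]
      exact (((forced_tube Φ hT (ρ, some (j, s)) u 0).2 (h j)) (.rule ρ) u ⟨rfl, rfl⟩
        (by simp [off]) α hα).symm
  refine ⟨fun p u => Forced Φ (.val p) u, ⟨fun ρ u hg h => ?_, fun p u hp hpass => ?_⟩,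
    fun ρ u hg h => ?_⟩
  · have h1 : Forced Φ (.tube (ρ, none) 0) (u + Pr.off (.rule ρ) (.tube (ρ, none) (0 : Fin (M + 1)))) := by
      refine forced_of Φ hT (w := .rule ρ) ⟨rfl, rfl⟩ fun α hα => ?_
      simpa [rsum, cst, hg] using key ρ u h α hα
    simpa [off, hub, ts] using (forced_tube Φ hT _ _ _).1 h1
  · have h1 : Forced Φ (.val p) (u + Pr.off (.hub p) (.val p : Bit P R M)) := by
      refine forced_of Φ hT (w := .hub p) rfl fun α hα => ?_
      have := Φ.node hα (q := .test p) rfl fun i => by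
        by_cases hi : i = Pr.row p
        · subst hi; exact Or.inr hpass
        · exact Or.inl hi
      simpa [sys, lhs0, cst, hp] using this
    simpa [off] using h1
  · obtain ⟨α, hα⟩ := Φ.ne (Sys.col (.rule ρ) u)
    simpa [rsum, cst, hg] using key ρ u h α hα

end Spoiler

end Prog

end Vale.Agent.P310
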