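import Vale.Agent.P310.Circ

namespace Vale.Agent.P310

open Function

variable {P R A : Type} {T M : ℕ}

def Node.ht : Node P R M → ℕ
  | .rule _ => 0
  | .tube _ t => t.val + 1
  | .hub _ => M + 1

def Bit.bt : Bit P R M → ℕ
  | .tube _ t => t.val
  | .val _ => M + 1

theorem F2_cases (x : F2) : x = 0 ∨ x = 1 := by
  revert x; decide

namespace Prog

variable [AddCommGroup A] (Pr : Prog P R T A)

omit [AddCommGroup A] in
theorem inc_ht {w : Node P R M} {e : Bit P R M} (h : Pr.inc w e) :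
    w.ht ≤ e.bt + 1 ∧ e.bt ≤ w.ht := by
  cases w <;> cases e <;> simp only [inc, Node.ht, Bit.bt] at h ⊢ <;> omega

def bh : Bit P R M → P
  | .tube e _ => Pr.hub e
  | .val p => p

def bg : Bit P R M → Fin T → A
  | .tube e _ => Pr.ts e
  | .val _ => 0

def InR : Node P R M → R → Prop
  | .rule ρ', ρ => ρ' = ρ
  | .tube e _, ρ => e.1 = ρ
  | .hub _, _ => False

def hb : Node P R M → Option P
  | .rule _ => none
  | .tube e _ => some (Pr.hub e)
  | .hub p => some p

def gauge : Node P R M → Fin T → A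
  | .tube e _ => Pr.ts e
  | _ => 0

theorem low_inc {w : Node P R M} {e : Bit P R M} (h : Pr.inc w e) (hw : w.ht ≤ M) :
    Pr.off w e = 0 ∧ ∃ e' t, e = .tube e' t ∧ ∀ ρ, InR w ρ ↔ e'.1 = ρ := by
  cases w <;> cases e <;> simp only [inc, Node.ht] at h hw
  · exact ⟨rfl, _, _, rfl, fun ρ => by simp [InR, h.1]⟩
  · exact ⟨rfl, _, _, rfl, fun ρ => by simp [InR, h.1]⟩
  · omega
  · omega

theorem high_inc {w : Node P R M} {e : Bit P R M} (h : Pr.inc w e) (hw : 0 < w.ht) :
    Pr.hb w = some (Pr.bh e) ∧ Pr.off w e + Pr.bg e = Pr.gauge w := by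
  cases w <;> cases e <;> simp only [inc, Node.ht] at h hw
  · omega
  · simp [hb, bh, off, bg, gauge, h.1]
  · simp [hb, bh, off, bg, gauge, h.1]
  · simp [hb, bh, off, bg, gauge, h]

theorem sys_lhs (q : Eqn P R M) (f : Bit P R M → F2) : (Pr.sys M).lhs q f = Pr.lhs0 q f := rfl

def eta (V : R × Port → F2) (τ : ℕ) (U : P → F2) : Bit P R M → F2
  | .tube e t => if t.val ≤ τ then V e else U (Pr.hub e)
  | .val p => U p

omit [AddCommGroup A] in
theorem eta_high (V : R × Port → F2) (τ : ℕ) (U : P → F2) {e : Bit P R M} (h : τ < e.bt) :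
    Pr.eta V τ U e = U (Pr.bh e) := by
  cases e
  · simp only [Bit.bt] at h
    simp only [eta, bh]
    rw [if_neg (by omega)]
  · rfl

theorem eta_sat (V : R × Port → F2) (τ : ℕ) (U : P → F2)
    (hV : ∀ ρ, Pr.rsum ρ (fun p => V (ρ, p)) = Pr.cst (.rule ρ : Eqn P R M))
    (hU : ∀ p, Pr.test p → U p = 0) (hτ : τ < M) (w : Node P R M) (hw : w.ht ≠ τ + 1) :
    (Pr.sys M).Sat (Pr.eta V τ U) w := by
  intro q hq
  cases q with
  | rule ρ =>
    rw [show (Pr.sys M).cst (.rule ρ) = _ from (hV ρ).symm, sys_lhs]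
    simp [lhs0, eta]
  | link e t =>
    show Pr.eta V τ U (.tube e t) + Pr.eta V τ U (Pr.up e t) = 0
    have hq' : Pr.loc (.link e t) = w := hq
    by_cases h : t.val < M
    · simp only [loc, h, dite_true] at hq'
      subst hq'
      simp only [Node.ht] at hw
      simp only [up, h, dite_true, eta]
      have : t.val + 1 ≤ τ ↔ t.val ≤ τ := by omega
      simp only [this]
      exact F2_add_self _
    · simp only [up, h, dite_false, eta]
      rw [if_neg (by omega)]
      exact F2_add_self _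
  | test p =>
    show Pr.lhs0 (.test p) _ = 0
    simp only [lhs0, eta]
    split_ifs with h
    · exact hU p h
    · rfl

open Classical in
noncomputable def dflt (e : R × Port) : F2 :=
  if Pr.goal e.1 ∧ e.2 = some (false, false) then 1 else 0

omit [AddCommGroup A] in
theorem dflt_ok (ρ : R) :
    Pr.rsum ρ (fun p => Pr.dflt (ρ, p)) = Pr.cst (.rule ρ : Eqn P R M) := by
  by_cases h : Pr.goal ρ <;> simp [rsum, dflt, cst, h]

theorem sat_const {η : Bit P R M → F2} {w : Node P R M} (h : (Pr.sys M).Sat η w)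
    (hw : 0 < w.ht) : ∃ e0, Pr.inc w e0 ∧ ∀ e, Pr.inc w e → η e = η e0 := by
  cases w with
  | rule ρ => simp [Node.ht] at hw
  | tube e s =>
    refine ⟨.tube e s.castSucc, ⟨rfl, Or.inl rfl⟩, fun e' he' => ?_⟩
    cases e' with
    | val p => exact he'.elim
    | tube e' t =>
      obtain ⟨rfl, h1 | h1⟩ := he'
      · congr 2; exact Fin.ext h1
      · have h2 : η (.tube e s.castSucc) + η (Pr.up e s.castSucc) = 0 :=
          h (.link e s.castSucc) (by simp [sys, loc])
        simp only [up, Fin.val_castSucc, s.isLt, dite_true] at h2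
        have h3 : t = ⟨s.val + 1, by omega⟩ := Fin.ext h1
        rw [h3]
        linear_combination h2 - F2_add_self (η (.tube e s.castSucc))
  | hub p =>
    refine ⟨.val p, rfl, fun e' he' => ?_⟩
    cases e' with
    | val p' => obtain rfl : p = p' := he'
                rfl
    | tube e' t =>
      obtain ⟨rfl, h1⟩ := he'
      have h2 : η (.tube e' t) + η (Pr.up e' t) = 0 :=
        h (.link e' t) (by simp [sys, loc, h1])
      simp only [up, h1, lt_self_iff_false, dite_false] at h2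
      linear_combination h2 - F2_add_self (η (.val (Pr.hub e')))

variable [NeZero T] {Pr} {pass : P → A → A → Prop} {Tr : P → (Fin T → A) → Prop}

theorem arc (hc : Pr.Closed pass Tr) (hg : ∀ ρ u, Pr.goal ρ → ¬ Tr (Pr.body ρ false) u)
    (ρ : R) (u : Fin T → A) (p0 : Port) (c : F2)
    (h0 : Tr (Pr.hub (ρ, p0)) (u + Pr.ts (ρ, p0)) → c = 0) :
    ∃ v : Port → F2, v p0 = c ∧ Pr.rsum ρ v = Pr.cst (.rule ρ : Eqn P R M) ∧
      ∀ p, Tr (Pr.hub (ρ, p)) (u + Pr.ts (ρ, p)) → v p = 0 := by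
  classical
  by_cases hρ : Pr.goal ρ
  · have hf := hg ρ (u + Pr.sh ρ false) hρ
    rcases p0 with _ | ⟨j, s⟩
    · refine ⟨fun p => if p = none then c else if p = some (false, false) then 1 else 0, by simp,
        by simp [rsum, cst, hρ], ?_⟩
      rintro (_ | ⟨_ | _, _ | _⟩) h <;> simp_all [hub, ts]
    · refine ⟨fun p => (if p = some (j, s) ∨ p = some (j, !s) then c else 0) +
        if p = some (false, (!j && !s)) then 1 else 0, ?_, ?_, ?_⟩
      · cases j <;> cases s <;> simp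
      · cases j <;> cases s <;> simp [rsum, cst, hρ] <;> linear_combination F2_add_self c
      · rintro (_ | ⟨_ | _, _ | _⟩) h <;> cases j <;> cases s <;> simp_all [hub, ts]
  · rcases p0 with _ | ⟨j, s⟩
    · rcases F2_cases c with rfl | rfl
      · exact ⟨0, rfl, by simp [rsum, cst, hρ], fun _ _ => rfl⟩
      · have h1 : ¬ ∀ j, Tr (Pr.body ρ j) (u + Pr.sh ρ j) := fun h =>
          one_ne_zero (h0 (by simpa [hub, ts] using hc.rule ρ u hρ h))
        push Not at h1
        obtain ⟨j, hj⟩ := h1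
        refine ⟨fun p => if p = none ∨ p = some (j, false) then 1 else 0, by simp, ?_, ?_⟩
        · cases j <;> simp [rsum, cst, hρ] <;> decide
        · rintro (_ | ⟨_ | _, _ | _⟩) h <;> cases j <;> simp_all [hub, ts]
    · refine ⟨fun p => if p = some (j, s) ∨ p = some (j, !s) then c else 0, by simp, ?_, ?_⟩
      · cases j <;> cases s <;> simp [rsum, cst, hρ] <;> linear_combination F2_add_self c
      · rintro (_ | ⟨_ | _, _ | _⟩) h <;> cases j <;> cases s <;> simp_all [hub, ts]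

variable (Pr Tr)

def VAdj (w : Node P R M) (u : Fin T → A) (w' : Node P R M) (u' : Fin T → A) : Prop :=
  ∃ e, Pr.inc w e ∧ Pr.inc w' e ∧ u + Pr.off w e = u' + Pr.off w' e

def Al (S : Set (Cell (Node P R M) T A)) (η : Bit P R M → F2) : Prop :=
  (∀ x ∈ S, (Pr.sys M).Sat η x.w) ∧
    ∀ (w : Fin T → Node P R M) (u : Fin T → Fin T → A),
      (∀ i, (⟨w i, i, u i i, u i (i + 1)⟩ : Cell (Node P R M) T A) ∈ S) →
      (∀ i, Pr.VAdj (w i) (u i) (w (i + 1)) (u (i + 1))) →
      ∀ i e, Pr.inc (w i) e → Tr (Pr.bh e) (u i + Pr.off (w i) e + Pr.bg e) → η e = 0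

variable {Pr Tr}

omit [AddCommGroup A] in
theorem walk_ht (w : Fin T → Node P R M)
    (h : ∀ i, ∃ e, Pr.inc (w i) e ∧ Pr.inc (w (i + 1)) e) (i : Fin T) :
    (w i).ht ≤ (w 0).ht + i.val ∧ (w 0).ht ≤ (w i).ht + i.val := by
  refine fin_ind (fun i => (w i).ht ≤ (w 0).ht + i.val ∧ (w 0).ht ≤ (w i).ht + i.val)
    (by simp) (fun i hi ih => ?_) i
  obtain ⟨e, h1, h2⟩ := h i
  have := Pr.inc_ht h1
  have := Pr.inc_ht h2
  omega

omit [NeZero T] [AddCommGroup A] in
theorem dflt_zero (hg : ∀ ρ u, Pr.goal ρ → ¬ Tr (Pr.body ρ false) u) (e : R × Port)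
    (u : Fin T → A) (h : Tr (Pr.hub e) u) : Pr.dflt e = 0 := by
  refine if_neg ?_
  obtain ⟨ρ, p⟩ := e
  rintro ⟨h1, h2⟩
  simp only at h1 h2
  subst h2
  exact hg ρ u h1 h

theorem al_ne (hg : ∀ ρ u, Pr.goal ρ → ¬ Tr (Pr.body ρ false) u) (hM : T + 2 ≤ M)
    (x : Fin T → Cell (Node P R M) T A) (y : Cell (Node P R M) T A) :
    ∃ η, Pr.Al Tr (insert y (Set.range x)) η := by
  classical
  obtain ⟨τ, hτ, h1⟩ : ∃ τ ∈ Finset.range M, τ ∉ insert (y.w.ht - 1)
      (Finset.univ.image fun i => (x i).w.ht - 1) := by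
    refine Finset.exists_mem_notMem_of_card_lt_card ?_
    refine lt_of_le_of_lt (Finset.card_insert_le _ _) ?_
    have := Finset.card_image_le (s := Finset.univ) (f := fun i => (x i).w.ht - 1)
    simp only [Finset.card_univ, Fintype.card_fin, Finset.card_range] at this ⊢
    omega
  simp only [Finset.mem_insert, Finset.mem_image, Finset.mem_univ, true_and, not_or, not_exists,
    Finset.mem_range] at h1 hτ
  refine ⟨Pr.eta Pr.dflt τ 0, ?_, ?_⟩
  · intro z hz
    refine Pr.eta_sat _ _ _ Pr.dflt_ok (fun _ _ => rfl) hτ _ ?_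
    rcases hz with rfl | ⟨i, rfl⟩
    · omega
    · have := h1.2 i; omega
  · intro w u _ _ i e _ h
    cases e with
    | val p => rfl
    | tube e t =>
      simp only [eta, Pi.zero_apply]
      split_ifs
      · exact dflt_zero hg e _ h
      · rfl

omit [AddCommGroup A] [NeZero T] in
theorem mem_cut {x : Fin T → Cell (Node P R M) T A} {y z : Cell (Node P R M) T A}
    (hx : ∀ i, (x i).i = i) (hz : z ∈ insert y (Set.range x)) (hi : z.i ≠ y.i) : z = x z.i := by
  rcases hz with rfl | ⟨i, rfl⟩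
  · exact absurd rfl hi
  · rw [hx]

theorem lift_ht (hT : 2 ≤ T) {x : Fin T → Cell (Node P R M) T A} {y : Cell (Node P R M) T A}
    (hx : ∀ i, (x i).i = i) (hl : ∀ i, (Pr.sys M).Link (x i) (x (i + 1)))
    {w : Fin T → Node P R M} {u : Fin T → Fin T → A}
    (h1 : ∀ i, (⟨w i, i, u i i, u i (i + 1)⟩ : Cell (Node P R M) T A) ∈ insert y (Set.range x))
    (h2 : ∀ i, Pr.VAdj (w i) (u i) (w (i + 1)) (u (i + 1))) (i : Fin T) :
    (w i).ht ≤ (x 0).w.ht + T ∧ (x 0).w.ht ≤ (w i).ht + T := by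
  have hw := walk_ht (Pr := Pr) (fun i => (x i).w) fun i => (hl i).imp fun e he => ⟨he.1, he.2.1⟩
  have h3 : ∀ i, i ≠ y.i → w i = (x i).w := fun i hi =>
    congrArg Cell.w (mem_cut hx (h1 i) hi)
  by_cases hi : i = y.i
  · obtain ⟨e, h4, h5, -⟩ := h2 i
    rw [h3 (i + 1) (hi ▸ succ_ne hT i)] at h5
    have := Pr.inc_ht h4
    have := Pr.inc_ht h5
    have := hw (i + 1)
    have := (i + 1).isLt
    omega
  · rw [h3 i hi]
    have := hw i
    have := i.isLt
    omega

theorem lift_eq (hT : 2 ≤ T) {x : Fin T → Cell (Node P R M) T A} {y : Cell (Node P R M) T A}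
    (hx : ∀ i, (x i).i = i) (g : Node P R M → Fin T → A) (v : Fin T → A)
    (ha : ∀ i, (x i).a + g (x i).w i = v i) (hb : ∀ i, (x i).b + g (x i).w (i + 1) = v (i + 1))
    {w : Fin T → Node P R M} {u : Fin T → Fin T → A}
    (h1 : ∀ i, (⟨w i, i, u i i, u i (i + 1)⟩ : Cell (Node P R M) T A) ∈ insert y (Set.range x))
    (h2 : ∀ i, u i + g (w i) = u (i + 1) + g (w (i + 1))) (i : Fin T) :
    u i + g (w i) = v := by
  have h3 : ∀ i, u i + g (w i) = u 0 + g (w 0) := fun i =>
    fin_ind (fun i => u i + g (w i) = u 0 + g (w 0)) rfl (fun i _ ih => (h2 i).symm.trans ih) i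
  funext l
  by_cases hl : l = y.i
  · have h4 : l - 1 ≠ y.i := by
      rw [← hl]
      intro h
      exact succ_ne hT (l - 1) (by rw [sub_add_cancel, h])
    have h5 := mem_cut hx (h1 (l - 1)) h4
    have h6 := hb (l - 1)
    simp only at h5
    rw [← h5] at h6
    simp only [sub_add_cancel] at h6
    rw [h3 i, ← h3 (l - 1)]
    exact h6
  · have h5 := mem_cut hx (h1 l) hl
    have h6 := ha l
    simp only at h5
    rw [← h5] at h6
    rw [h3 i, ← h3 l]
    exact h6

theorem res_row_zero {W B Q : Type} (S : Sys W B Q T A) (r : Fin T) (θ : B → F2)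
    (x : Cell W T A) (h : x.i = r → ∀ e, S.inc x.w e → θ e = 0) :
    S.res (Sys.row r θ) x = S.res 0 x := by
  unfold Sys.res Sys.row
  refine Prod.ext ?_ rfl
  funext e
  simp only [Prod.fst_zero, Pi.zero_apply, ite_self]
  split_ifs with h1 h2
  · exact h h2 e h1
  · rfl
  · rfl

theorem cut_low (hc : Pr.Closed pass Tr) (hg : ∀ ρ u, Pr.goal ρ → ¬ Tr (Pr.body ρ false) u)
    (hT : 2 ≤ T) (hM : 2 * T + 4 ≤ M)
    (x : Fin T → Cell (Node P R M) T A) (η : Bit P R M → F2) (y : Cell (Node P R M) T A)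
    (hx : ∀ i, (x i).i = i) (hl : ∀ i, (Pr.sys M).Link (x i) (x (i + 1)))
    (hη : Pr.Al Tr (Set.range x) η) (h0 : (x 0).w.ht ≤ T + 2) :
    ∃ η', Pr.Al Tr (insert y (Set.range x)) η' ∧ ∀ e, Pr.inc (x 0).w e → η e = η' e := by
  classical
  have hw := walk_ht (Pr := Pr) (fun i => (x i).w) fun i => (hl i).imp fun e he => ⟨he.1, he.2.1⟩
  have hw' : ∀ i, (x i).w.ht ≤ 2 * T + 1 := fun i => by
    have := hw i
    have := i.isLt
    omega
  let u : Fin T → A := fun l => (x l).a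
  have hb : ∀ i, (x i).b = u (i + 1) := by
    intro i
    obtain ⟨e, h1, h2, h3⟩ := hl i
    have h4 := (Pr.low_inc h1 ((hw' i).trans (by omega))).1
    have h5 := (Pr.low_inc h2 ((hw' _).trans (by omega))).1
    simp only [sys] at h3
    simpa [h4, h5] using h3
  have hA : ∀ e, Pr.inc (x 0).w e → Tr (Pr.bh e) (u + Pr.bg e) → η e = 0 := by
    intro e he h
    refine hη.2 (fun i => (x i).w) (fun _ => u) (fun i => ⟨i, ?_⟩) (fun i => ?_) 0 e he ?_
    · exact Cell.ext rfl (hx i) rfl (hb i)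
    · obtain ⟨e, h1, h2, -⟩ := hl i
      refine ⟨e, h1, h2, ?_⟩
      rw [(Pr.low_inc h1 ((hw' i).trans (by omega))).1,
        (Pr.low_inc h2 ((hw' _).trans (by omega))).1]
    · rwa [(Pr.low_inc he ((hw' 0).trans (by omega))).1, add_zero]
  have hs := hη.1 _ ⟨0, rfl⟩
  obtain ⟨ρ, v, hv1, hv2, hv3⟩ : ∃ (ρ : R) (v : Port → F2),
      Pr.rsum ρ v = Pr.cst (.rule ρ : Eqn P R M) ∧
      (∀ p, Tr (Pr.hub (ρ, p)) (u + Pr.ts (ρ, p)) → v p = 0) ∧
      ∀ e, Pr.inc (x 0).w e → ∃ p t, e = .tube (ρ, p) t ∧ η e = v p := by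
    generalize (x 0).w = w at h0 hA hs
    cases w with
    | rule ρ =>
      refine ⟨ρ, fun p => η (.tube (ρ, p) 0), hs (.rule ρ) rfl,
        fun p h => hA (.tube (ρ, p) 0) ⟨rfl, rfl⟩ h, fun e he => ?_⟩
      cases e with
      | val p => exact he.elim
      | tube e t =>
        obtain ⟨ρ', p⟩ := e
        obtain ⟨rfl, h2⟩ := he
        obtain rfl : t = 0 := Fin.ext h2
        exact ⟨p, 0, rfl, rfl⟩
    | tube e s =>
      obtain ⟨ρ, p⟩ := e
      obtain ⟨e0, he0, h1⟩ := Pr.sat_const hs (by simp [Node.ht])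
      have h2 : Pr.inc (.tube (ρ, p) s) (.tube (ρ, p) s.castSucc) := ⟨rfl, Or.inl rfl⟩
      obtain ⟨v, h3, h4, h5⟩ := arc (M := M) hc hg ρ u p (η e0) fun h => by
        rw [← h1 _ h2]; exact hA _ h2 h
      refine ⟨ρ, v, h4, h5, fun e he => ?_⟩
      cases e with
      | val p => exact he.elim
      | tube e t =>
        refine ⟨p, t, by rw [← he.1], ?_⟩
        rw [h1 _ he, h3]
    | hub p => simp only [Node.ht] at h0; omega
  obtain ⟨τ, hτ1, hτ2, hτ3⟩ : ∃ τ, 2 * T + 2 ≤ τ ∧ τ < M ∧ y.w.ht ≠ τ + 1 := by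
    by_cases h : y.w.ht = 2 * T + 3
    · exact ⟨2 * T + 3, by omega, by omega, by omega⟩
    · exact ⟨2 * T + 2, by omega, by omega, by omega⟩
  refine ⟨Pr.eta (fun e => if e.1 = ρ then v e.2 else Pr.dflt e) τ 0, ⟨?_, ?_⟩, ?_⟩
  · intro z hz
    refine Pr.eta_sat _ _ _ (fun ρ' => ?_) (fun _ _ => rfl) hτ2 _ ?_
    · by_cases h : ρ' = ρ
      · subst h; simpa using hv1
      · simpa [h] using Pr.dflt_ok ρ'
    · rcases hz with rfl | ⟨i, rfl⟩
      · exact hτ3
      · have := hw' i; omega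
  · intro w u' h1 h2 i e he h
    have hh : ∀ i, (w i).ht ≤ M := fun i => by
      have := lift_ht hT hx hl h1 h2 i
      omega
    have h3 := lift_eq hT hx (fun _ => 0) u (fun i => by simp [u]) (fun i => by simp [hb]) h1
      (fun i => by
        obtain ⟨e, h4, h5, h6⟩ := h2 i
        rwa [(Pr.low_inc h4 (hh _)).1, (Pr.low_inc h5 (hh _)).1] at h6) i
    rw [(Pr.low_inc he (hh _)).1, h3] at h
    cases e with
    | val p => rfl
    | tube e t =>
      simp only [eta, Pi.zero_apply]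
      split_ifs with h4 h5
      · obtain ⟨ρ', p⟩ := e
        subst h5
        exact hv2 p h
      · exact dflt_zero hg e _ h
      · rfl
  · intro e he
    obtain ⟨p, t, rfl, h1⟩ := hv3 e he
    have := Pr.inc_ht he
    simp only [Bit.bt] at this
    simp only [eta, if_true]
    rw [if_pos (by omega), h1]

omit [AddCommGroup A] [NeZero T] in
theorem rsum_zero (ρ : R) (v : Port → F2) (h0 : v none = 0)
    (h : ∀ j, v (some (j, false)) = v (some (j, true))) : Pr.rsum ρ v = 0 := by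
  simp [rsum, h0, h, F2_add_self]

theorem hom_leaf (p : P) (hp : Pr.test p) (a b : A) (hf : ¬ pass p a b) :
    ∃ ζ : Asg (Bit P R M) (Eqn P R M) T A, (Pr.sys M).Hom (Pr.pres pass) ζ ∧ ζ.2 = 0 ∧
      (∀ e i a' b', i ≠ Pr.row p → ζ.1 e i a' b' = 0) ∧
      ∀ e a' b', Pr.bh e = p → a' + Pr.bg e (Pr.row p) = a → b' + Pr.bg e (Pr.row p + 1) = b →
        ζ.1 e (Pr.row p) a' b' = 1 := by
  classical
  refine ⟨(fun e i a' b' => if Pr.bh e = p ∧ i = Pr.row p ∧ a' + Pr.bg e i = a ∧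
    b' + Pr.bg e (i + 1) = b then 1 else 0, 0), ?_, rfl, ?_, ?_⟩
  · intro q i a' b' hq
    simp only [Pi.zero_apply, add_zero]
    cases q with
    | rule ρ =>
      have h1 : Pr.head ρ ≠ p := fun h => Pr.head_nt ρ (h ▸ hp)
      rw [sys_lhs]
      simp only [lhs0]
      apply rsum_zero
      · exact if_neg fun h => h1 h.1
      · intro j; rfl
    | link e t =>
      show (ite _ _ _ : F2) + ite _ _ _ = 0
      by_cases h : t.val < M
      · simp only [sys, loc, up, h, dite_true, off, bh, bg, F2_add_self]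
      · simp only [sys, loc, up, h, dite_false, off, bh, bg, Pi.neg_apply, neg_add_cancel_right,
          Pi.zero_apply, add_zero, F2_add_self]
    | test p' =>
      rw [sys_lhs]
      simp only [lhs0, sys, loc, off, bh, bg, Pi.zero_apply, add_zero]
      split_ifs with h1 h2
      · obtain ⟨rfl, rfl, rfl, rfl⟩ := h2
        rcases hq with hq | hq
        · exact absurd rfl hq
        · exact absurd hq hf
      · rfl
      · rfl
  · intro e i a' b' hi
    simp [hi]
  · intro e a' b' h1 h2 h3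
    simp [h1, h2, h3]

theorem cut_high (hc : Pr.Closed pass Tr)
    (hT : 2 ≤ T) (hM : 2 * T + 4 ≤ M)
    (x : Fin T → Cell (Node P R M) T A) (η : Bit P R M → F2) (y : Cell (Node P R M) T A)
    (hx : ∀ i, (x i).i = i) (hl : ∀ i, (Pr.sys M).Link (x i) (x (i + 1)))
    (hη : Pr.Al Tr (Set.range x) η) (h0 : T + 3 ≤ (x 0).w.ht) :
    ∃ η', Pr.Al Tr (insert y (Set.range x)) η' ∧ ∃ r ζ, (Pr.sys M).Hom (Pr.pres pass) ζ ∧
      ∀ i, (Pr.sys M).res (Sys.row r (η + η')) (x i) = (Pr.sys M).res ζ (x i) := by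
  classical
  have hw := walk_ht (Pr := Pr) (fun i => (x i).w) fun i => (hl i).imp fun e he => ⟨he.1, he.2.1⟩
  have hw' : ∀ i, 4 ≤ (x i).w.ht := fun i => by
    have := hw i
    have := i.isLt
    omega
  have hpos : ∀ i, 0 < (x i).w.ht := fun i => lt_of_lt_of_le (by omega) (hw' i)
  let v : Fin T → A := fun l => (x l).a + Pr.gauge (x l).w l
  have hb : ∀ i, (x i).b + Pr.gauge (x i).w (i + 1) = v (i + 1) := by
    intro i
    obtain ⟨e, h1, h2, h3⟩ := hl i
    simp only [v]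
    rw [← (Pr.high_inc h1 (hpos _)).2, ← (Pr.high_inc h2 (hpos _)).2]
    simp only [sys, hx] at h3
    simp only [Pi.add_apply, ← add_assoc, h3]
  obtain ⟨p, hp⟩ : ∃ p, ∀ i, Pr.hb (x i).w = some p := by
    obtain ⟨e, h1, -⟩ := hl 0
    refine ⟨Pr.bh e, fin_ind _ (Pr.high_inc h1 (hpos _)).1 fun i _ ih => ?_⟩
    obtain ⟨e', h2, h3, -⟩ := hl i
    rw [(Pr.high_inc h3 (hpos _)).1, ← (Pr.high_inc h2 (hpos _)).1, ih]
  have hbh : ∀ i e, Pr.inc (x i).w e → Pr.bh e = p := fun i e he =>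
    Option.some_injective _ ((Pr.high_inc he (hpos _)).1.symm.trans (hp i))
  have hA : ∀ i e, Pr.inc (x i).w e → Tr p v → η e = 0 := by
    intro i e he h
    refine hη.2 (fun i => (x i).w) (fun i => v - Pr.gauge (x i).w) (fun i => ⟨i, ?_⟩)
      (fun i => ?_) i e he ?_
    · refine Cell.ext rfl (hx i) ?_ ?_
      · simp [v]
      · simp [← hb i]
    · obtain ⟨e, h1, h2, -⟩ := hl i
      refine ⟨e, h1, h2, ?_⟩
      rw [← (Pr.high_inc h1 (hpos _)).2, ← (Pr.high_inc h2 (hpos _)).2]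
      abel
    · rwa [hbh i e he, add_assoc, (Pr.high_inc he (hpos _)).2, sub_add_cancel]
  obtain ⟨τ, hτ1, hτ3⟩ : ∃ τ, τ ≤ 1 ∧ y.w.ht ≠ τ + 1 := by
    by_cases h : y.w.ht = 1
    · exact ⟨1, by omega, by omega⟩
    · exact ⟨0, by omega, by omega⟩
  have key : ∀ c : F2, (Pr.test p → c = 0) → (Tr p v → c = 0) →
      ∃ η', Pr.Al Tr (insert y (Set.range x)) η' ∧ ∀ i e, Pr.inc (x i).w e → η' e = c := by
    intro c hc1 hc2
    refine ⟨Pr.eta Pr.dflt τ fun p' => if p' = p then c else 0, ⟨?_, ?_⟩, ?_⟩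
    · intro z hz
      refine Pr.eta_sat _ _ _ Pr.dflt_ok (fun p' hp' => ?_) (by omega) _ ?_
      · split_ifs with h
        · exact hc1 (h ▸ hp')
        · rfl
      · rcases hz with rfl | ⟨i, rfl⟩
        · exact hτ3
        · have := hw' i; omega
    · intro w u' h1 h2 i e he h
      have hh : ∀ i, 3 ≤ (w i).ht := fun i => by
        have := lift_ht hT hx hl h1 h2 i
        omega
      have hh' : ∀ i, 0 < (w i).ht := fun i => lt_of_lt_of_le (by omega) (hh i)
      have h3 := lift_eq hT hx Pr.gauge v (fun i => rfl) hb h1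
        (fun i => by
          obtain ⟨e, h4, h5, h6⟩ := h2 i
          rw [← (Pr.high_inc h4 (hh' _)).2, ← (Pr.high_inc h5 (hh' _)).2, ← add_assoc,
            ← add_assoc, h6]) i
      rw [add_assoc, (Pr.high_inc he (hh' _)).2, h3] at h
      have := Pr.inc_ht he
      have := hh i
      rw [Pr.eta_high _ _ _ (by omega)]
      split_ifs with h4
      · exact hc2 (h4 ▸ h)
      · rfl
    · intro i e he
      have := Pr.inc_ht he
      have := hw' i
      rw [Pr.eta_high _ _ _ (by omega), if_pos (hbh i e he)]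
  obtain ⟨e0, he0, h1⟩ := Pr.sat_const (hη.1 _ ⟨Pr.row p, rfl⟩) (hpos _)
  by_cases ht : Pr.test p ∧ η e0 = 1
  · obtain ⟨η', h2, h3⟩ := key 0 (fun _ => rfl) (fun _ => rfl)
    have h4 : ¬ pass p (v (Pr.row p)) (v (Pr.row p + 1)) := fun h =>
      one_ne_zero (ht.2.symm.trans (hA _ _ he0 (hc.test p v ht.1 h)))
    obtain ⟨ζ, hζ1, hζ2, hζ3, hζ4⟩ := hom_leaf (M := M) p ht.1 _ _ h4
    refine ⟨η', h2, Pr.row p, ζ, hζ1, fun i => ?_⟩
    unfold Sys.res Sys.row
    refine Prod.ext ?_ (by simp [hζ2])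
    funext e
    simp only [hx]
    split_ifs with h5 h6
    · subst h6
      rw [hζ4 e _ _ (hbh _ e h5)]
      · rw [Pi.add_apply, h1 e h5, h3 _ e h5, ht.2, add_zero]
      · rw [add_assoc]
        exact congrArg _ (congrFun (Pr.high_inc h5 (hpos _)).2 _)
      · rw [add_assoc, ← hb]
        exact congrArg _ (congrFun (Pr.high_inc h5 (hpos _)).2 _)
    · exact (hζ3 _ _ _ _ h6).symm
    · rfl
  · obtain ⟨η', h2, h3⟩ := key (η e0) (fun h => (F2_cases _).resolve_right fun h' => ht ⟨h, h'⟩)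
      (hA _ _ he0)
    refine ⟨η', h2, Pr.row p, 0, Sys.hom_zero _ _, fun i => res_row_zero _ _ _ _ fun hi e he => ?_⟩
    rw [hx] at hi
    subst hi
    rw [Pi.add_apply, h1 e he, h3 _ e he, F2_add_self]

theorem duplicator {Jk Lf : Type} [Fintype (Vtx (Node P R M) (Bit P R M) (Eqn P R M) T A Jk Lf)]
    (L : Sys.Leaves (Node P R M) T A Lf) (hc : Pr.Closed pass Tr)
    (hg : ∀ ρ u, Pr.goal ρ → ¬ Tr (Pr.body ρ false) u) (hT : 2 ≤ T) (hM : 2 * T + 4 ≤ M) :
    WLEquiv T ((Pr.sys M).graph (Jk := Jk) (Pr.pres pass) L hT false)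
      ((Pr.sys M).graph (Pr.pres pass) L hT true) := by
  refine Sys.dup2 _ _ L hT (Pr.Al Tr) ?_ ?_ (al_ne hg (by omega)) ?_
  · intro S S' η hS h
    exact ⟨fun x hx => h.1 x (hS hx), fun w u h1 => h.2 w u fun i => hS (h1 i)⟩
  · intro S η x h hx
    exact h.1 x hx
  · intro x η y hx hl hη
    by_cases h0 : (x 0).w.ht ≤ T + 2
    · obtain ⟨η', h1, h2⟩ := cut_low hc hg hT hM x η y hx hl hη h0
      refine ⟨η', h1, 0, 0, Sys.hom_zero _ _, fun i => res_row_zero _ _ _ _ fun hi e he => ?_⟩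
      rw [hx] at hi
      subst hi
      rw [Pi.add_apply, h2 e he, F2_add_self]
    · exact cut_high hc hT hM x η y hx hl hη (by omega)

end Prog

end Vale.Agent.P310
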