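import Mathlib

namespace Vale.Agent.P310

/-- The colours available after `r` rounds of `k`-dimensional refinement: atomic types at
round zero, and afterwards pairs (old colour, multiset of `k`-tuples of old colours). -/
def Colour (k : ℕ) : ℕ → Type
  | 0 => Fin k → Fin k → Prop × Prop
  | r + 1 => Colour k r × Multiset (Fin k → Colour k r)

/-- The colour `C_r(x)` of a `k`-tuple `x` of vertices under joint-update refinement. -/
def colour {V : Type} [Fintype V] (k : ℕ) (G : SimpleGraph V) :
    (r : ℕ) → (Fin k → V) → Colour k r
  | 0, x => fun i j => (x i = x j, G.Adj (x i) (x j))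
  | r + 1, x => (colour k G r x,
      (Finset.univ : Finset V).val.map fun y => fun i => colour k G r (Function.update x i y))

/-- `k`-WL equivalence: the multisets of colours of all `k`-tuples agree in every round. -/
def WLEquiv {V : Type} [Fintype V] (k : ℕ) (G H : SimpleGraph V) : Prop :=
  ∀ r : ℕ, (Finset.univ : Finset (Fin k → V)).val.map (colour k G r)
    = (Finset.univ : Finset (Fin k → V)).val.map (colour k H r)

/-- Head moves. -/
inductive Move
  | left
  | stay
  | right

/-- The new head position on a one-way infinite tape. -/
def Move.apply : Move → ℕ → ℕ
  | .left, p => p - 1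
  | .stay, p => p
  | .right, p => p + 1

/-- A deterministic Turing machine with `m + 1` read/write tapes, state set `Fin q` and tape
alphabet `Fin g`.  A state with `out = some b` is halting, with answer `b`. -/
structure TM where
  m : ℕ
  q : ℕ
  g : ℕ
  start : Fin q
  blank : Fin g
  bit : Bool → Fin g
  out : Fin q → Option Bool
  trans : Fin q → (Fin (m + 1) → Fin g) → Fin q × (Fin (m + 1) → Fin g × Move)

/-- A configuration: state, tape contents and head positions. -/
structure Cfg (M : TM) where
  state : Fin M.q
  tape : Fin (M.m + 1) → ℕ → Fin M.g
  head : Fin (M.m + 1) → ℕ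

/-- One step; halting configurations do not change. -/
def TM.step (M : TM) (c : Cfg M) : Cfg M :=
  if (M.out c.state).isSome then c else
    let d := M.trans c.state fun j => c.tape j (c.head j)
    ⟨d.1, fun j => Function.update (c.tape j) (c.head j) (d.2 j).1,
      fun j => (d.2 j).2.apply (c.head j)⟩

/-- The initial configuration: the input word on tape `0`, blanks elsewhere, heads at `0`. -/
def TM.init (M : TM) (w : List Bool) : Cfg M :=
  ⟨M.start, fun j p => if j = 0 then (w[p]?.map M.bit).getD M.blank else M.blank, fun _ => 0⟩

/-- The configuration after `t` steps on input `w`. -/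
def TM.run (M : TM) (w : List Bool) (t : ℕ) : Cfg M := M.step^[t] (M.init w)

/-- The running time on input `w`: the first time at which the state is halting. -/
noncomputable def TM.time (M : TM) (w : List Bool) : ℕ :=
  sInf {t | (M.out (M.run w t).state).isSome}

open Classical in
/-- The adjacency matrix of a graph on `Fin n`, row by row. -/
noncomputable def adjMatrix {n : ℕ} (G : SimpleGraph (Fin n)) : List Bool :=
  List.ofFn fun p : Fin (n * n) => decide (G.Adj p.divNat p.modNat)

/-- The input word for a pair of graphs: the two adjacency matrices, one after the other. -/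
noncomputable def encode {n : ℕ} (G H : SimpleGraph (Fin n)) : List Bool :=
  adjMatrix G ++ adjMatrix H

/-- `M` decides `k`-WL equivalence: on every pair of graphs with the same number of vertices
it halts, and answers `true` exactly when the graphs are `k`-WL equivalent. -/
def TM.Decides (M : TM) (k : ℕ) : Prop :=
  ∀ (n : ℕ) (G H : SimpleGraph (Fin n)), ∃ (t : ℕ) (b : Bool),
    M.out (M.run (encode G H) t).state = some b ∧ (b = true ↔ WLEquiv k G H)

/-- The worst-case running time over pairs of graphs with `n` vertices each. -/
noncomputable def TM.worst (M : TM) (n : ℕ) : ℕ :=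
  ⨆ p : SimpleGraph (Fin n) × SimpleGraph (Fin n), M.time (encode p.1 p.2)

end Vale.Agent.P310
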