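import Vale.Agent.P310.Self

namespace Vale.Agent.P310

open Function

variable {T n E : ℕ}

theorem num_add {a b : ℕ} (r : Fin (a + b) → Fin T) (u : Fin T → ZMod n) :
    num r u = num (fun l => r (Fin.castAdd b l)) u + n ^ a * num (fun l => r (Fin.natAdd a l)) u := by
  unfold num
  rw [Fin.sum_univ_add, Finset.mul_sum]
  congr 1
  refine Finset.sum_congr rfl fun l _ => ?_
  rw [Fin.val_natAdd, pow_add]; ring

noncomputable def dg (n : ℕ) [NeZero n] : (Fin 6 → ZMod n) ≃ Fin (n ^ 6) :=
  Equiv.ofBijective (fun d => ⟨num id d, num_lt _ _⟩) ⟨fun d d' h => funext fun l =>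
    num_inj (r := id) (congrArg Fin.val h) l, fun p => by
      obtain ⟨u, -, h⟩ := num_surj (r := (id : Fin 6 → Fin 6)) injective_id
        (0 : Fin 6 → ZMod n) p.isLt
      exact ⟨u, Fin.ext h⟩⟩

open Classical in
theorem adjMatrix_get {m : ℕ} (G : SimpleGraph (Fin m)) (x y : Fin m) :
    (adjMatrix G)[y.val + m * x.val]? = some (decide (G.Adj x y)) := by
  have h : y.val + m * x.val < m * m := by
    have := y.isLt
    have : m * (x.val + 1) ≤ m * m := Nat.mul_le_mul_left _ x.isLt
    nlinarith
  have hm : 0 < m := x.pos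
  unfold adjMatrix
  rw [List.getElem?_ofFn, dif_pos h]
  have h1 : (⟨y.val + m * x.val, h⟩ : Fin (m * m)).divNat = x := by
    refine Fin.ext ?_
    simp only [Fin.coe_divNat]
    rw [Nat.add_mul_div_left _ _ hm, Nat.div_eq_of_lt y.isLt, zero_add]
  have h2 : (⟨y.val + m * x.val, h⟩ : Fin (m * m)).modNat = y := by
    refine Fin.ext ?_
    simp only [Fin.coe_modNat]
    rw [Nat.add_mul_mod_self_left, Nat.mod_eq_of_lt y.isLt]
  rw [h1, h2]

open Classical in
theorem encode_get {m : ℕ} (G H : SimpleGraph (Fin m)) (x y : Fin m) (h : ℕ) :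
    (encode G H)[y.val + m * x.val + m * m * h]? =
      if h = 0 then some (decide (G.Adj x y)) else if h = 1 then some (decide (H.Adj x y))
        else none := by
  have h0 : y.val + m * x.val < m * m := by
    have := y.isLt
    have : m * (x.val + 1) ≤ m * m := Nat.mul_le_mul_left _ x.isLt
    nlinarith
  have hl : ∀ G : SimpleGraph (Fin m), (adjMatrix G).length = m * m := fun G => by
    simp [adjMatrix]
  unfold encode
  split_ifs with h1 h2
  · subst h1
    rw [mul_zero, add_zero, List.getElem?_append_left (by rw [hl]; exact h0), adjMatrix_get]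
  · subst h2
    rw [mul_one, List.getElem?_append_right (by rw [hl]; omega), hl, Nat.add_sub_cancel,
      adjMatrix_get]
  · rw [List.getElem?_eq_none]
    rw [List.length_append, hl, hl]
    have : m * m * 2 ≤ m * m * h := Nat.mul_le_mul_left _ (by omega)
    omega

abbrev DD (E : ℕ) := 6 + 6 + (1 + E)

def yI (l : Fin 6) : Fin (DD E) := Fin.castAdd _ (Fin.castAdd _ l)
def xI (l : Fin 6) : Fin (DD E) := Fin.castAdd _ (Fin.natAdd _ l)
def gI : Fin (DD E) := Fin.natAdd _ (Fin.castAdd _ 0)
def hI (l : Fin E) : Fin (DD E) := Fin.natAdd _ (Fin.natAdd _ l)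

noncomputable def hiQ : QF (DD E) := .not (QF.qor fun l => .not (.rel .zero (hI l) (hI l)))
noncomputable def lowQ (g : Bool) : QF (DD E) :=
  .and hiQ (.rel (if g then .one else .zero) gI gI)
def lit (b : Bool) (φ : QF (DD E)) : QF (DD E) := if b then φ else .not φ

noncomputable def inQ : Option Bool → QF (DD E)
  | some b => .or (.and (lowQ false) (lit b (adjQ xI yI false)))
      (.and (lowQ true) (lit b (adjQ xI yI true)))
  | none => .and (.not (lowQ false)) (.not (lowQ true))

section Main

variable [NeZero T] (M : TM) (hT : 3 + 2 * DD E ≤ T)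

def trR (l : Fin (DD E)) : Fin T := ⟨3 + l.val, by have := l.isLt; omega⟩
def prR (l : Fin (DD E)) : Fin T := ⟨3 + DD E + l.val, by have := l.isLt; omega⟩
def zR : Fin T := ⟨2, by omega⟩

noncomputable def code : Code (Nm M) Tb T :=
  simCode M .zero (trR hT) (prR hT) fun b => QF.comp (prR hT) (zR hT) true (inQ b)

variable {M hT} {n' : ℕ} (δ : (code M hT).Dat n n') [NeZero n]

noncomputable def gr (g : Bool) : SimpleGraph (Fin (n ^ 6)) :=
  (((code M hT).sys n).graph ((code M hT).pres δ.R) δ.L (by omega) g).comap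
    ((dg n).symm.trans δ.vxE)

theorem sem_in (I : Nm M → (Fin T → ZMod n) → Prop) (b : Option Bool) (u : Fin T → ZMod n) :
    Fm.Sem δ.R I (QF.comp (prR hT) (zR hT) true (inQ b)) u ↔
      (encode (gr δ false) (gr δ true))[num (prR hT) u]? = b := by
  classical
  have h1v : ((1 : Fin T) : ℕ) = 1 := by
    rw [Fin.val_one']; exact Nat.mod_eq_of_lt (by omega)
  rw [QF.sem_comp (by omega) (fun _ _ => Iff.rfl)
    (fun l h => by have := congrArg Fin.val h; simp [prR] at this)
    (fun l h => by have := congrArg Fin.val h; rw [h1v] at this; simp only [prR] at this; omega)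
    (fun l h => by have := congrArg Fin.val h; simp only [prR, zR] at this; omega)
    (fun h => by have := congrArg Fin.val h; simp [zR] at this)
    (fun h => by have := congrArg Fin.val h; rw [h1v] at this; simp [zR] at this)]
  set v : Fin (DD E) → ZMod n := fun l => u (prR hT l) with hv
  let x : Fin (n ^ 6) := dg n fun l => v (xI l)
  let y : Fin (n ^ 6) := dg n fun l => v (yI l)
  let h' : ℕ := num (fun l => prR hT (hI l)) u
  have hn : num (prR hT) u = y.val + n ^ 6 * x.val + n ^ 6 * n ^ 6 * ((v gI).val + n * h') := by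
    have e1 : num (fun l : Fin 1 => prR hT (Fin.natAdd (6 + 6) (Fin.castAdd E l))) u
        = (v gI).val := by simp [num, v, gI]
    rw [num_add, num_add, num_add, ← pow_add, pow_one, e1]
    rfl
  have hadj : ∀ g, QF.eval δ.R v (adjQ xI yI g) ↔ (gr δ g).Adj x y := by
    intro g
    rw [Code.eval_adj δ v xI yI (by omega)]
    simp only [gr, SimpleGraph.comap_adj, Equiv.trans_apply, x, y, Equiv.symm_apply_apply]
    rfl
  have hhi : QF.eval δ.R v hiQ ↔ h' = 0 := by
    simp [hiQ, QF.eval, QF.eval_qor, Code.Dat.R, h', num_pos_iff, v]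
  have h2 := δ.two
  have hl0 : QF.eval δ.R v (lowQ false) ↔ (v gI).val + n * h' = 0 := by
    simp only [lowQ, QF.eval, hhi, Bool.false_eq_true, if_false, Code.Dat.R, Nat.add_eq_zero_iff,
      ZMod.val_eq_zero, mul_eq_zero, NeZero.ne n, false_or]
    exact and_comm
  have hl1 : QF.eval δ.R v (lowQ true) ↔ (v gI).val + n * h' = 1 := by
    have : Fact (1 < n) := ⟨h2⟩
    simp only [lowQ, QF.eval, hhi, if_true, Code.Dat.R]
    constructor
    · rintro ⟨h3, h4⟩
      rw [h3, h4, ZMod.val_one]; rfl
    · intro h3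
      have h4 : h' = 0 := by
        by_contra h5
        have : n * 1 ≤ n * h' := Nat.mul_le_mul_left _ (by omega)
        omega
      refine ⟨h4, ZMod.val_injective n ?_⟩
      rw [ZMod.val_one]
      simpa [h4] using h3
  rw [hn, encode_get]
  generalize (v gI).val + n * h' = c at hl0 hl1
  clear hv hn
  rcases b with _ | b
  · simp only [inQ, QF.eval, hl0, hl1]
    split_ifs with h3 h4 <;> simp [*]
  · simp only [inQ, QF.eval, hl0, hl1]
    cases b <;> simp only [lit, QF.eval, hadj, if_true, Bool.false_eq_true, if_false] <;>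
      split_ifs with h3 h4 <;> simp [*]

include δ in
theorem diag (hM : M.Decides T) : n ^ DD E ≤ M.worst (n ^ 6) := by
  classical
  have : Fintype (Code.Vx (C := code M hT) n n') := Fintype.ofEquiv _ δ.vxE
  have : Nonempty (Fin n') := ⟨(δ.dec 0).2.2.2⟩
  set w := encode (gr δ false) (gr δ true) with hw
  have key : WLEquiv T (gr δ false) (gr δ true) ↔
      ∀ t < n ^ DD E, M.out (M.run w t).state ≠ some true := by
    unfold gr
    rw [wl_comap, (code M hT).wl_iff δ.L (by omega) (fun _ _ => Iff.rfl)]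
    refine sim_iff (z := Tb.zero) (fun _ _ => Iff.rfl) ?_ ?_ ?_ (sem_in δ)
    · intro l l' h
      have := congrArg Fin.val h
      simp only [trR] at this
      exact Fin.ext (by omega)
    · intro l l' h
      have := congrArg Fin.val h
      simp only [prR] at this
      exact Fin.ext (by omega)
    · intro l l' h
      have := congrArg Fin.val h
      have := l.isLt
      simp only [prR, trR] at *
      omega
  obtain ⟨t, b, h1, h2⟩ := hM _ (gr δ false) (gr δ true)
  have hne : {t | (M.out (M.run w t).state).isSome}.Nonempty := ⟨t, by simp [hw, h1]⟩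
  have h3 : (M.out (M.run w (M.time w)).state).isSome := Nat.sInf_mem hne
  have h4 : ∀ s, (M.out (M.run w s).state).isSome → M.out (M.run w s).state = some b := by
    intro s hs
    have e1 := M.run_stay w hs t
    have e2 := M.run_stay w (t := t) (by simp [hw, h1]) s
    rw [← e1, add_comm, e2, h1]
  have h5 : n ^ DD E ≤ M.time w := by
    by_contra h6
    cases b
    · have h7 : ¬ WLEquiv T (gr δ false) (gr δ true) := fun h => by simpa using h2.2 h
      rw [key] at h7
      push Not at h7
      obtain ⟨s, -, h8⟩ := h7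
      have := h4 s (by simp [h8])
      simp [h8] at this
    · exact key.1 (h2.1 rfl) _ (not_le.1 h6) (h4 _ h3)
  refine h5.trans ?_
  exact le_ciSup (f := fun p : SimpleGraph (Fin (n ^ 6)) × SimpleGraph (Fin (n ^ 6)) =>
    M.time (encode p.1 p.2)) (Set.finite_range _).bddAbove (gr δ false, gr δ true)

end Main

theorem exists_dat {N : Type} [Finite N] [NeZero T] (C : Code N Tb T) (n0 : ℕ) :
    ∃ n n', n0 ≤ n ∧ Nonempty (C.Dat n n') := by
  classical
  have hne : Nonempty (C.Nd × Fin T × Loc C.Bt C.Eq') :=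
    ⟨(.rule none, 0, 0)⟩
  let c := Nat.card (C.Nd × Fin T × Bool)
  let n' := n0 + c + Fintype.card (Tb × Bool) + 2
  let n := Nat.card (C.Kap n')
  have hn : n' ≤ n := by
    have : n = Nat.card (C.Nd × Fin T × Loc C.Bt C.Eq') * n' := by
      simp only [n, Nat.card_prod, Nat.card_fin]; ring
    rw [this]
    exact Nat.le_mul_of_pos_left _ Nat.card_pos
  have : NeZero n := ⟨by omega⟩
  obtain ⟨dec⟩ : Nonempty (ZMod n ≃ C.Kap n') := Finite.card_eq.1 (Nat.card_zmod n)
  let f := Finite.equivFin (C.Nd × Fin T × Bool)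
  have hv : ∀ x, (((f x).val + 1 : ℕ) : ZMod n).val = (f x).val + 1 := fun x =>
    ZMod.val_cast_of_lt (by have := (f x).isLt; omega)
  have hc : ∀ x, ((tbCode x : ℕ) : ZMod n).val = tbCode x := fun x =>
    ZMod.val_cast_of_lt (by
      have := (Fintype.equivFin (Tb × Bool) x).isLt
      unfold tbCode; omega)
  refine ⟨n, n', by omega, ⟨⟨dec, fun x => (((f x).val + 1 : ℕ) : ZMod n), ?_, ?_, ?_, by omega⟩⟩⟩
  · intro x y h
    have := congrArg ZMod.val h
    rw [hv, hv] at this
    exact f.injective (Fin.ext (by omega))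
  · intro x h
    have := congrArg ZMod.val h
    rw [hv] at this
    simp at this
  · intro x y h
    have := congrArg ZMod.val h
    rw [hc, hc] at this
    exact (Fintype.equivFin _).injective (Fin.ext this)

theorem lower (k : ℕ) (hk : 29 ≤ k) (M : TM) (hM : M.Decides k) :
    ∃ᶠ N : ℕ in Filter.atTop, (N : ℝ) ^ ((k : ℝ) / 14) ≤ M.worst N := by
  have : NeZero k := ⟨by omega⟩
  rw [Filter.frequently_atTop]
  intro n0
  have hT : 3 + 2 * DD ((k - 3) / 2 - 13) ≤ k := by simp only [DD]; omega
  obtain ⟨n, n', h1, ⟨δ⟩⟩ := exists_dat (code M hT) n0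
  have h2 := δ.two
  have : NeZero n := ⟨by omega⟩
  refine ⟨n ^ 6, h1.trans (Nat.le_self_pow (by norm_num) n), ?_⟩
  have h3 := diag δ hM
  have h4 : (1 : ℝ) ≤ n := by exact_mod_cast (by omega : 1 ≤ n)
  calc ((n ^ 6 : ℕ) : ℝ) ^ ((k : ℝ) / 14) = (n : ℝ) ^ ((6 : ℝ) * ((k : ℝ) / 14)) := by
        rw [Real.rpow_mul (by linarith)]; push_cast; norm_num
    _ ≤ (n : ℝ) ^ ((DD ((k - 3) / 2 - 13) : ℕ) : ℝ) := by
        refine Real.rpow_le_rpow_of_exponent_le h4 ?_
        have h5 : 3 * k ≤ 7 * DD ((k - 3) / 2 - 13) := by simp only [DD]; omega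
        have h6 : (3 * k : ℝ) ≤ 7 * (DD ((k - 3) / 2 - 13) : ℕ) := by exact_mod_cast h5
        linarith
    _ ≤ _ := by rw [Real.rpow_natCast]; exact_mod_cast h3

end Vale.Agent.P310
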