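import Vale.Agent.P310.Circ2

namespace Vale.Agent.P310

open Function

inductive Fm (N J : Type) (T : ℕ)
  | call (n : N)
  | test (r : Fin T) (j : J) (pol : Bool)
  | and (φ ψ : Fm N J T)
  | or (φ ψ : Fm N J T)
  | sh (s : Fin T → SignType) (φ : Fm N J T)
  | ex (r : Fin T) (φ : Fm N J T)
  | eq (p q : Fin T)

variable {N J : Type} {T n : ℕ}

def sg (n : ℕ) (s : Fin T → SignType) : Fin T → ZMod n := fun l => (s l : ZMod n)

namespace Fm

def Sem [NeZero T] (R : J → ZMod n → ZMod n → Prop) (I : N → (Fin T → ZMod n) → Prop) :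
    Fm N J T → (Fin T → ZMod n) → Prop
  | .call m, u => I m u
  | .test r j pol, u => (R j (u r) (u (r + 1)) ↔ pol = true)
  | .and φ ψ, u => Sem R I φ u ∧ Sem R I ψ u
  | .or φ ψ, u => Sem R I φ u ∨ Sem R I ψ u
  | .sh s φ, u => Sem R I φ (u + sg n s)
  | .ex r φ, u => ∃ c, Sem R I φ (update u r c)
  | .eq p q, u => u p = u q

theorem Sem.mono [NeZero T] {R : J → ZMod n → ZMod n → Prop}
    {I I' : N → (Fin T → ZMod n) → Prop} (h : ∀ m u, I m u → I' m u) :
    ∀ (φ : Fm N J T) u, Sem R I φ u → Sem R I' φ u := by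
  intro φ
  induction φ with
  | call m => exact h m
  | test r j pol => exact fun u h => h
  | and φ ψ ih1 ih2 => exact fun u h => ⟨ih1 u h.1, ih2 u h.2⟩
  | or φ ψ ih1 ih2 => exact fun u h => h.imp (ih1 u) (ih2 u)
  | sh s φ ih => exact fun u h => ih _ h
  | ex r φ ih => exact fun u h => h.imp fun c => ih _
  | eq p q => exact fun u h => h

def sub (z : J) : Fm N J T → List (Fm N J T)
  | .call m => [.call m]
  | .test r j pol => [.test r j pol]
  | .and φ ψ => .and φ ψ :: (sub z φ ++ sub z ψ)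
  | .or φ ψ => .or φ ψ :: (sub z φ ++ sub z ψ)
  | .sh s φ => .sh s φ :: sub z φ
  | .ex r φ => .ex r φ :: sub z φ
  | .eq p q => [.eq p q, .test p z true, .test q z true]

theorem self_mem_sub (z : J) (φ : Fm N J T) : φ ∈ sub z φ := by
  cases φ <;> simp [sub]

theorem sub_trans (z : J) (φ : Fm N J T) : ∀ ψ ∈ sub z φ, ∀ χ ∈ sub z ψ, χ ∈ sub z φ := by
  induction φ with
  | call m => intro ψ h; simp only [sub, List.mem_singleton] at h; subst h; exact fun _ h => h
  | test r j pol =>
    intro ψ h; simp only [sub, List.mem_singleton] at h; subst h; exact fun _ h => h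
  | and φ ψ ih1 ih2 =>
    intro χ h
    simp only [sub, List.mem_cons, List.mem_append] at h
    rcases h with rfl | h | h
    · exact fun _ h => h
    · intro ω h'; simp [sub, ih1 _ h _ h']
    · intro ω h'; simp [sub, ih2 _ h _ h']
  | or φ ψ ih1 ih2 =>
    intro χ h
    simp only [sub, List.mem_cons, List.mem_append] at h
    rcases h with rfl | h | h
    · exact fun _ h => h
    · intro ω h'; simp [sub, ih1 _ h _ h']
    · intro ω h'; simp [sub, ih2 _ h _ h']
  | sh s φ ih =>
    intro χ h
    simp only [sub, List.mem_cons] at h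
    rcases h with rfl | h
    · exact fun _ h => h
    · intro ω h'; simp [sub, ih _ h _ h']
  | ex r φ ih =>
    intro χ h
    simp only [sub, List.mem_cons] at h
    rcases h with rfl | h
    · exact fun _ h => h
    · intro ω h'; simp [sub, ih _ h _ h']
  | eq p q =>
    intro χ h
    simp only [sub, List.mem_cons, List.not_mem_nil, or_false] at h
    rcases h with rfl | rfl | rfl
    · exact fun _ h => h
    · intro ω h'; simp_all [sub]
    · intro ω h'; simp_all [sub]

end Fm

/-- a recursive program: definitions of the names, the accepting name, the zero test -/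
structure Code (N J : Type) (T : ℕ) where
  df : N → Fm N J T
  acc : N
  z : J

namespace Code

variable (C : Code N J T)

def S : Set (Fm N J T) := {φ | ∃ m, φ = .call m ∨ φ ∈ Fm.sub C.z (C.df m)}

instance [Finite N] : Finite C.S := by
  have : C.S = ⋃ m, ({Fm.call m} ∪ {φ | φ ∈ Fm.sub C.z (C.df m)}) := by
    ext φ; simp [S]
  rw [this]
  exact (Set.finite_iUnion fun m => (Set.finite_singleton _).union (List.finite_toSet _)).to_subtype

def bd : Fm N J T → Bool → Bool → Fm N J T
  | .call m, _, _ => C.df m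
  | .test _ _ _, _, _ => .call C.acc
  | .and φ ψ, _, j => if j then ψ else φ
  | .or φ ψ, b, _ => if b then ψ else φ
  | .sh _ φ, _, _ => φ
  | .ex r φ, b, _ => if b then .ex r φ else φ
  | .eq p q, b, j => if b then .eq p q else if j then .test q C.z true else .test p C.z true

def sf : Fm N J T → Bool → Fin T → SignType
  | .sh s _, _ => s
  | .ex r _, b => fun l => if b = true ∧ l = r then 1 else 0
  | .eq p q, b => fun l => if b = true ∧ (l = p ∨ l = q) then 1 else 0
  | _, _ => 0

def hd : Fm N J T → Fm N J T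
  | .test _ _ _ => .call C.acc
  | φ => φ

def isTest : Fm N J T → Prop
  | .test _ _ _ => True
  | _ => False

def rowOf [NeZero T] : Fm N J T → Fin T
  | .test r _ _ => r
  | _ => 0

def passOf (R : J → ZMod n → ZMod n → Prop) : Fm N J T → ZMod n → ZMod n → Prop
  | .test _ j pol, a, b => (R j a b ↔ pol = true)
  | _, _, _ => True

theorem call_mem (m : N) : Fm.call m ∈ C.S := ⟨m, Or.inl rfl⟩

theorem sub_mem {φ ψ : Fm N J T} (h : φ ∈ C.S) (h' : ψ ∈ Fm.sub C.z φ) : ψ ∈ C.S := by
  obtain ⟨m, rfl | h⟩ := h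
  · simp only [Fm.sub, List.mem_singleton] at h'
    exact ⟨m, Or.inl h'⟩
  · exact ⟨m, Or.inr (Fm.sub_trans _ _ _ h _ h')⟩

theorem bd_mem {φ : Fm N J T} (h : φ ∈ C.S) (b j : Bool) : C.bd φ b j ∈ C.S := by
  cases φ with
  | call m => exact ⟨m, Or.inr (Fm.self_mem_sub _ _)⟩
  | test r j pol => exact C.call_mem _
  | _ =>
    refine C.sub_mem h ?_
    cases b <;> cases j <;> simp [bd, Fm.sub, Fm.self_mem_sub]

theorem hd_mem {φ : Fm N J T} (h : φ ∈ C.S) : C.hd φ ∈ C.S := by
  cases φ with
  | test r j pol => exact C.call_mem _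
  | _ => exact h

abbrev Rl := Option (C.S × Bool)

variable [NeZero T]

def prog (n : ℕ) : Prog C.S C.Rl T (ZMod n) where
  head
    | none => ⟨.call C.acc, C.call_mem _⟩
    | some (φ, _) => ⟨C.hd φ.1, C.hd_mem φ.2⟩
  body
    | none, _ => ⟨.call C.acc, C.call_mem _⟩
    | some (φ, b), j => ⟨C.bd φ.1 b j, C.bd_mem φ.2 b j⟩
  sh
    | none, _ => 0
    | some (φ, b), _ => sg n (sf φ.1 b)
  goal ρ := ρ = none
  test φ := isTest φ.1
  row φ := rowOf φ.1
  head_nt := by
    rintro (_ | ⟨⟨φ, h⟩, b⟩)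
    · exact id
    · cases φ <;> exact id

def Pre (R : J → ZMod n → ZMod n → Prop) (I : N → (Fin T → ZMod n) → Prop) : Prop :=
  ∀ m u, Fm.Sem R I (C.df m) u → I m u

omit [NeZero T] in
theorem sg_zero : sg n (0 : Fin T → SignType) = 0 := by
  funext l; simp [sg]

theorem closed_of_pre {R : J → ZMod n → ZMod n → Prop} (hz : ∀ a b, R C.z a b ↔ a = 0)
    {I : N → (Fin T → ZMod n) → Prop} (h : C.Pre R I) :
    (C.prog n).Closed (fun φ => passOf R φ.1) fun φ u => Fm.Sem R I φ.1 u := by
  constructor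
  · rintro (_ | ⟨⟨φ, hφ⟩, b⟩) u hg hb
    · exact absurd rfl hg
    have h0 := hb false
    have h1 := hb true
    clear hb hg
    simp only [prog] at h0 h1 ⊢
    cases φ with
    | call m => simp only [bd, sf, sg_zero, add_zero] at h0; exact h m u h0
    | test r j pol => simpa only [bd, hd, sf, sg_zero, add_zero] using h0
    | and φ ψ =>
      simp only [bd, sf, sg_zero, add_zero, Bool.false_eq_true, if_false, if_true] at h0 h1
      exact ⟨h0, h1⟩
    | or φ ψ =>
      cases b <;>
        simp only [bd, sf, sg_zero, add_zero, Bool.false_eq_true, if_false, if_true] at h0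
      · exact Or.inl h0
      · exact Or.inr h0
    | sh s φ => exact h0
    | ex r φ =>
      cases b
      · refine ⟨u r, ?_⟩
        simp only [bd, Bool.false_eq_true, if_false] at h0
        convert h0 using 1
        funext l; simp [sg, sf]
      · obtain ⟨c, hc⟩ := h0
        refine ⟨c, ?_⟩
        convert hc using 1
        funext l
        by_cases hl : l = r
        · subst hl; simp
        · simp [sg, sf, hl]
    | eq p q =>
      cases b
      · simp only [bd, Bool.false_eq_true, if_false, if_true, Fm.Sem, hz, iff_true, sf,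
          false_and, Pi.add_apply, sg] at h0 h1
        simp only [SignType.coe_zero, add_zero] at h0 h1
        exact h0.trans h1.symm
      · simp only [bd, if_true, Fm.Sem, sf, true_and, Pi.add_apply, sg, true_or, or_true,
          add_left_inj] at h0
        exact h0
  · rintro ⟨φ, hφ⟩ u ht hp
    cases φ with
    | test r j pol => exact hp
    | _ => exact ht.elim

omit [NeZero T] in
theorem down [NeZero n] (p : (Fin T → ZMod n) → Prop) (s : Fin T → ZMod n)
    (h : ∀ u, p (u + s) → p u) (u : Fin T → ZMod n) (c : ZMod n) (h0 : p (u + c • s)) : p u := by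
  obtain ⟨m, rfl⟩ := ZMod.natCast_zmod_surjective c
  induction m with
  | zero => simpa using h0
  | succ m ih =>
    refine ih (h _ ?_)
    rwa [Nat.cast_succ, add_smul, one_smul, ← add_assoc] at h0

theorem pre_of_closed [NeZero n] {R : J → ZMod n → ZMod n → Prop} (hz : ∀ a b, R C.z a b ↔ a = 0)
    {Tr : C.S → (Fin T → ZMod n) → Prop}
    (h : (C.prog n).Closed (fun φ => passOf R φ.1) Tr) :
    C.Pre R fun m u => Tr ⟨.call m, C.call_mem m⟩ u := by
  have hr : ∀ (φ : C.S) b u,
      (∀ j, Tr ⟨C.bd φ.1 b j, C.bd_mem φ.2 b j⟩ (u + sg n (sf φ.1 b))) →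
        Tr ⟨C.hd φ.1, C.hd_mem φ.2⟩ u := fun φ b u =>
    h.rule (some (φ, b)) u (by simp [prog])
  have ht : ∀ r j pol (hφ : Fm.test r j pol ∈ C.S) (u : Fin T → ZMod n),
      (R j (u r) (u (r + 1)) ↔ pol = true) → Tr ⟨_, hφ⟩ u := fun r j pol hφ u hu =>
    h.test ⟨_, hφ⟩ u trivial hu
  have key : ∀ φ (hφ : φ ∈ C.S) u, Fm.Sem R (fun m u => Tr ⟨.call m, C.call_mem m⟩ u) φ u →
      Tr ⟨φ, hφ⟩ u := by
    intro φ
    induction φ with
    | call m => exact fun _ u h => h
    | test r j pol => exact fun hφ u h => ht r j pol hφ u h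
    | and φ ψ ih1 ih2 =>
      intro hφ u h
      refine hr ⟨_, hφ⟩ false u fun j => ?_
      simp only [sf, sg_zero, add_zero]
      cases j
      · exact ih1 _ u h.1
      · exact ih2 _ u h.2
    | or φ ψ ih1 ih2 =>
      intro hφ u h
      rcases h with h | h
      · refine hr ⟨_, hφ⟩ false u fun j => ?_
        simp only [sf, sg_zero, add_zero]
        exact ih1 _ u h
      · refine hr ⟨_, hφ⟩ true u fun j => ?_
        simp only [sf, sg_zero, add_zero]
        exact ih2 _ u h
    | sh s φ ih =>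
      intro hφ u h
      exact hr ⟨_, hφ⟩ false u fun j => ih _ _ h
    | ex r φ ih =>
      rintro hφ u ⟨c, hc⟩
      refine down (Tr ⟨_, hφ⟩) (sg n (sf (.ex r φ) true))
        (fun u h => hr ⟨_, hφ⟩ true u fun _ => h) u (c - u r) ?_
      refine hr ⟨_, hφ⟩ false _ fun j => ?_
      have h1 : u + (c - u r) • sg n (sf (.ex r φ) true) + sg n (sf (.ex r φ) false)
          = update u r c := by
        funext l
        by_cases hl : l = r
        · subst hl; simp [sg, sf]
        · simp [sg, sf, hl]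
      exact h1 ▸ ih (C.bd_mem hφ false j) _ hc
    | eq p q =>
      intro hφ u h
      refine down (Tr ⟨_, hφ⟩) (sg n (sf (.eq p q : Fm N J T) true))
        (fun u h => hr ⟨_, hφ⟩ true u fun _ => h) u (- u p) ?_
      refine hr ⟨_, hφ⟩ false _ fun j => ?_
      have h' : u p = u q := h
      cases j
      · refine ht p C.z true (C.bd_mem hφ false false) _ ?_
        simp [hz, sg, sf]
      · refine ht q C.z true (C.bd_mem hφ false true) _ ?_
        simp [hz, sg, sf, h']
  intro m u hm
  refine hr ⟨_, C.call_mem m⟩ false u fun j => ?_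
  simp only [sf, sg_zero, add_zero]
  exact key _ _ u hm

abbrev Nd := Node C.S C.Rl (2 * T + 4)
abbrev Bt := Bit C.S C.Rl (2 * T + 4)
abbrev Eq' := Eqn C.S C.Rl (2 * T + 4)

noncomputable def sys (n : ℕ) : Sys C.Nd C.Bt C.Eq' T (ZMod n) := (C.prog n).sys (2 * T + 4)

def pres (R : J → ZMod n → ZMod n → Prop) : C.Eq' → Fin T → ZMod n → ZMod n → Prop :=
  (C.prog n).pres fun φ => passOf R φ.1

theorem wl_iff [NeZero n] {Jk Lf : Type} [Nonempty Jk]
    [Fintype (Vtx C.Nd C.Bt C.Eq' T (ZMod n) Jk Lf)] (L : Sys.Leaves C.Nd T (ZMod n) Lf)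
    (hT : 2 ≤ T) {R : J → ZMod n → ZMod n → Prop} (hz : ∀ a b, R C.z a b ↔ a = 0) :
    WLEquiv T ((C.sys n).graph (Jk := Jk) (C.pres R) L hT false)
      ((C.sys n).graph (C.pres R) L hT true) ↔ ∃ I, C.Pre R I ∧ ∀ u, ¬ I C.acc u := by
  constructor
  · intro h
    obtain ⟨Φ⟩ := Sys.spo _ _ L hT h
    obtain ⟨Tr, h1, h2⟩ := Prog.spoiler Φ hT
    refine ⟨_, C.pre_of_closed hz h1, fun u hu => h2 none u rfl fun j => ?_⟩
    simpa [prog] using hu
  · rintro ⟨I, h1, h2⟩
    refine Prog.duplicator L (C.closed_of_pre hz h1) ?_ hT le_rfl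
    rintro ρ u rfl
    exact h2 u

end Code

end Vale.Agent.P310
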