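import Vale.Agent.P310.Defs

namespace Vale.Agent.P310

open Function

variable {V : Type} [Fintype V] {k : ℕ}

theorem exists_equiv_of_map_eq {α β γ : Type} [Fintype α] [Fintype β] (f : α → γ) (g : β → γ)
    (h : (Finset.univ : Finset α).val.map f = (Finset.univ : Finset β).val.map g) :
    ∃ σ : α ≃ β, ∀ a, g (σ a) = f a := by
  classical
  have hc : ∀ c, Fintype.card {a // f a = c} = Fintype.card {b // g b = c} := by
    intro c
    have h1 := congrArg (Multiset.count c) h
    rw [Multiset.count_map, Multiset.count_map] at h1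
    rw [Fintype.card_subtype, Fintype.card_subtype]
    simp only [Finset.card, Finset.filter_val]
    simpa [eq_comm] using h1
  refine ⟨Equiv.ofFiberEquiv (f := f) (g := g) fun c => Fintype.equivOfCardEq (hc c), ?_⟩
  intro a
  exact Equiv.ofFiberEquiv_map _ a

theorem map_eq_of_equiv {α β γ : Type} [Fintype α] [Fintype β] (f : α → γ) (g : β → γ)
    (σ : α ≃ β) (h : ∀ a, g (σ a) = f a) :
    (Finset.univ : Finset α).val.map f = (Finset.univ : Finset β).val.map g := by
  have h1 : (Finset.univ : Finset β).val = (Finset.univ : Finset α).val.map σ := by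
    have := Finset.map_univ_equiv σ
    rw [← this]
    rfl
  rw [h1, Multiset.map_map]
  exact Multiset.map_congr rfl fun a _ => (h a).symm

theorem colour_mono {G H : SimpleGraph V} {x y : Fin k → V} :
    ∀ {s r : ℕ}, r ≤ s → colour k G s x = colour k H s y → colour k G r x = colour k H r y := by
  intro s
  induction s with
  | zero => intro r hr h; obtain rfl : r = 0 := by omega
            exact h
  | succ s ih =>
    intro r hr h
    rcases Nat.eq_or_lt_of_le hr with rfl | hlt
    · exact h
    · exact ih (by omega) (congrArg Prod.fst h)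

theorem equiv_of_family (G H : SimpleGraph V) (F : (Fin k → V) → (Fin k → V) → Prop)
    (hatom : ∀ x y, F x y → ∀ i j, (x i = x j ↔ y i = y j) ∧
      (G.Adj (x i) (x j) ↔ H.Adj (y i) (y j)))
    (hext : ∀ x y, F x y → ∃ f : V ≃ V, ∀ v i, F (update x i v) (update y i (f v)))
    (σ : (Fin k → V) ≃ (Fin k → V)) (hσ : ∀ x, F x (σ x)) : WLEquiv k G H := by
  have key : ∀ r x y, F x y → colour k G r x = colour k H r y := by
    intro r
    induction r with
    | zero =>
      intro x y h
      funext i j
      exact Prod.ext (propext (hatom x y h i j).1) (propext (hatom x y h i j).2)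
    | succ r ih =>
      intro x y h
      obtain ⟨f, hf⟩ := hext x y h
      refine Prod.ext (ih x y h) ?_
      refine map_eq_of_equiv _ _ f fun v => ?_
      funext i
      exact (ih _ _ (hf v i)).symm
  intro r
  exact map_eq_of_equiv _ _ σ fun x => (key r x _ (hσ x)).symm

theorem exists_forall_of_mono {α : Type} [Finite α] (P : α → ℕ → Prop)
    (hm : ∀ a r s, r ≤ s → P a s → P a r) (h : ∀ r, ∃ a, P a r) : ∃ a, ∀ r, P a r := by
  by_contra hne
  push Not at hne
  choose f hf using hne
  obtain ⟨B, hB⟩ := (Set.finite_range f).bddAbove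
  obtain ⟨a, ha⟩ := h B
  exact hf a (hm a _ _ (hB ⟨a, rfl⟩) ha)

/-- the canonical winning family -/
def Same (k : ℕ) (G H : SimpleGraph V) (x y : Fin k → V) : Prop :=
  ∀ r, colour k G r x = colour k H r y

theorem Same.atom {G H : SimpleGraph V} {x y : Fin k → V} (h : Same k G H x y) (i j : Fin k) :
    (x i = x j ↔ y i = y j) ∧ (G.Adj (x i) (x j) ↔ H.Adj (y i) (y j)) := by
  have h0 := congrFun (congrFun (h 0) i) j
  exact ⟨iff_of_eq (congrArg Prod.fst h0), iff_of_eq (congrArg Prod.snd h0)⟩

theorem Same.ext {G H : SimpleGraph V} {x y : Fin k → V} (h : Same k G H x y) :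
    ∃ f : V ≃ V, ∀ v i, Same k G H (update x i v) (update y i (f v)) := by
  classical
  have := exists_forall_of_mono (α := V ≃ V)
    (fun f r => ∀ v i, colour k G r (update x i v) = colour k H r (update y i (f v)))
    (fun f r s hrs hs v i => colour_mono hrs (hs v i)) (fun r => by
      obtain ⟨f, hf⟩ := exists_equiv_of_map_eq _ _ (congrArg Prod.snd (h (r + 1)))
      exact ⟨f, fun v i => (congrFun (hf v) i).symm⟩)
  obtain ⟨f, hf⟩ := this
  exact ⟨f, fun v i r => hf r v i⟩

theorem WLEquiv.exists_same {G H : SimpleGraph V} (h : WLEquiv k G H) (x : Fin k → V) :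
    ∃ y, Same k G H x y := by
  refine exists_forall_of_mono (fun y r => colour k G r x = colour k H r y)
    (fun y r s hrs hs => colour_mono hrs hs) fun r => ?_
  obtain ⟨σ, hσ⟩ := exists_equiv_of_map_eq _ _ (h r)
  exact ⟨σ x, (hσ x).symm⟩

theorem colour_comap {U : Type} [Fintype U] (e : U ≃ V) (G : SimpleGraph V) :
    ∀ r (x : Fin k → U), colour k (G.comap e) r x = colour k G r (e ∘ x) := by
  intro r
  induction r with
  | zero =>
    intro x
    funext i j
    exact Prod.ext (propext e.injective.eq_iff.symm) rfl
  | succ r ih =>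
    intro x
    refine Prod.ext (ih x) ?_
    refine map_eq_of_equiv _ _ e fun v => ?_
    funext i
    rw [ih, Function.comp_update]

theorem wl_comap {U : Type} [Fintype U] (e : U ≃ V) (G H : SimpleGraph V) :
    WLEquiv k (G.comap e) (H.comap e) ↔ WLEquiv k G H := by
  have key : ∀ (G : SimpleGraph V) r,
      (Finset.univ : Finset (Fin k → U)).val.map (colour k (G.comap e) r)
        = (Finset.univ : Finset (Fin k → V)).val.map (colour k G r) := fun G r =>
    map_eq_of_equiv _ _ (Equiv.arrowCongr (Equiv.refl _) e) fun x => by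
      rw [colour_comap]; rfl
  unfold WLEquiv
  simp only [key]

end Vale.Agent.P310
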