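import Vale.Agent.P310.Game

namespace Vale.Agent.P310

open Function

abbrev F2 := ZMod 2

structure Sys (W B Q : Type) (T : ℕ) (A : Type) where
  inc : W → B → Prop
  off : W → B → Fin T → A
  loc : Q → W
  lhs : Q → (B → F2) →ₗ[F2] F2
  lhs_local : ∀ q f g, (∀ e, inc (loc q) e → f e = g e) → lhs q f = lhs q g
  cst : Q → F2

@[ext] structure Cell (W : Type) (T : ℕ) (A : Type) where
  w : W
  i : Fin T
  a : A
  b : A

abbrev Loc (B Q : Type) := (B → F2) × (Q → F2) × (Q → F2)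

abbrev Asg (B Q : Type) (T : ℕ) (A : Type) :=
  (B → Fin T → A → A → F2) × (Q → Fin T → A → F2)

@[ext] structure Vtx (W B Q : Type) (T : ℕ) (A Jk Lf : Type) where
  c : Cell W T A
  l : Loc B Q
  j : Jk
  f : Lf

variable {W B Q A Jk Lf : Type} {T : ℕ} [NeZero T] [AddCommGroup A]

theorem succ_ne (hT : 2 ≤ T) (i : Fin T) : i + 1 ≠ i := by
  intro h
  have h1 : (1 : Fin T) = 0 := by simpa using h
  have := congrArg Fin.val h1
  rw [Fin.val_one', Fin.val_zero, Nat.mod_eq_of_lt (by omega)] at this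
  omega

namespace Sys

variable (S : Sys W B Q T A) (pres : Q → Fin T → A → A → Prop)

open Classical in
noncomputable def res (β : Asg B Q T A) (x : Cell W T A) : Loc B Q :=
  (fun e => if S.inc x.w e then β.1 e x.i (x.a + S.off x.w e x.i) (x.b + S.off x.w e (x.i + 1))
      else 0,
    fun q => if S.loc q = x.w then β.2 q x.i x.a else 0,
    fun q => if S.loc q = x.w then β.2 q (x.i + 1) x.b else 0)

open Classical in
def ok (g : Bool) (x : Cell W T A) (α : Loc B Q) : Prop :=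
  ∀ q, S.loc q = x.w → pres q x.i x.a x.b →
    S.lhs q α.1 + α.2.1 q + α.2.2 q = if g = true ∧ x.i = 0 then S.cst q else 0

def hclash (x : Cell W T A) (α : Loc B Q) (x' : Cell W T A) (α' : Loc B Q) : Prop :=
  ∃ e, S.inc x.w e ∧ S.inc x'.w e ∧ x.i = x'.i ∧
    x.a + S.off x.w e x.i = x'.a + S.off x'.w e x'.i ∧
    x.b + S.off x.w e (x.i + 1) = x'.b + S.off x'.w e (x'.i + 1) ∧ α.1 e ≠ α'.1 e

def vclash (x : Cell W T A) (α : Loc B Q) (x' : Cell W T A) (α' : Loc B Q) : Prop :=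
  x.w = x'.w ∧ x.i + 1 = x'.i ∧ x.b = x'.a ∧ ∃ q, S.loc q = x.w ∧ α.2.2 q ≠ α'.2.1 q

def clash (x : Cell W T A) (α : Loc B Q) (x' : Cell W T A) (α' : Loc B Q) : Prop :=
  S.hclash x α x' α' ∨ S.vclash x α x' α' ∨ S.vclash x' α' x α

theorem clash_symm {x x' : Cell W T A} {α α' : Loc B Q} (h : S.clash x α x' α') :
    S.clash x' α' x α := by
  rcases h with ⟨e, h1, h2, h3, h4, h5, h6⟩ | h | h
  · exact Or.inl ⟨e, h2, h1, h3.symm, h4.symm, h5.symm, h6.symm⟩
  · exact Or.inr (Or.inr h)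
  · exact Or.inr (Or.inl h)

theorem clash_irrefl (hT : 2 ≤ T) (x : Cell W T A) (α : Loc B Q) : ¬ S.clash x α x α := by
  rintro (⟨e, -, -, -, -, -, h6⟩ | h | h)
  · exact h6 rfl
  · exact succ_ne hT _ h.2.1
  · exact succ_ne hT _ h.2.1

theorem clash_zero (x x' : Cell W T A) : ¬ S.clash x 0 x' 0 := by
  rintro (⟨e, -, -, -, -, -, h6⟩ | ⟨-, -, -, q, -, h⟩ | ⟨-, -, -, q, -, h⟩)
  · exact h6 rfl
  · exact h rfl
  · exact h rfl

theorem vclash_shift (β : Asg B Q T A) (x x' : Cell W T A) (α α' : Loc B Q) :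
    S.vclash x (α + S.res β x) x' (α' + S.res β x') ↔ S.vclash x α x' α' := by
  unfold vclash
  refine and_congr_right fun h1 => and_congr_right fun h2 => and_congr_right fun h3 => ?_
  refine exists_congr fun q => and_congr_right fun h4 => ?_
  have h5 : S.loc q = x'.w := h4.trans h1
  simp only [res, Prod.snd_add, Prod.fst_add, Pi.add_apply, if_pos h4, if_pos h5, h2, h3]
  simp

theorem clash_shift (β : Asg B Q T A) (x x' : Cell W T A) (α α' : Loc B Q) :
    S.clash x (α + S.res β x) x' (α' + S.res β x') ↔ S.clash x α x' α' := by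
  unfold clash
  rw [vclash_shift, vclash_shift]
  refine or_congr_left ?_
  unfold hclash
  refine exists_congr fun e => and_congr_right fun h1 => and_congr_right fun h2 =>
    and_congr_right fun h3 => and_congr_right fun h4 => and_congr_right fun h5 => ?_
  simp only [res, Prod.fst_add, Pi.add_apply, h1, h2, if_true, h4, h5]
  simp [h3]

theorem ok_shift {x : Cell W T A} {γ : Loc B Q} (h : S.ok pres true x γ) (α : Loc B Q) :
    S.ok pres true x (α + γ) ↔ S.ok pres false x α := by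
  unfold ok at *
  refine forall_congr' fun q => forall_congr' fun h1 => forall_congr' fun h2 => ?_
  have := h q h1 h2
  rw [← this]
  simp only [Prod.fst_add, Prod.snd_add, Pi.add_apply, map_add, Bool.false_eq_true, false_and,
    if_false]
  constructor
  · intro h3; linear_combination h3
  · intro h3; linear_combination h3

omit [AddCommGroup A] in
theorem ok_zero (x : Cell W T A) : S.ok pres false x 0 := by
  intro q _ _
  simp

/-- data for the pendant leaves encoding colours -/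
structure Leaves (W : Type) (T : ℕ) (A Lf : Type) where
  base : Lf
  lf : Cell W T A → Prop → Lf → Prop
  not_base : ∀ c p, ¬ lf c p base
  two : ∀ c p, ∃ j j', j ≠ j' ∧ lf c p j ∧ lf c p j'
  inj : ∀ c p c' p', Set.ncard {j | lf c p j} = Set.ncard {j | lf c' p' j} → c = c' ∧ (p ↔ p')

variable (L : Leaves W T A Lf)

def pend (g : Bool) (v v' : Vtx W B Q T A Jk Lf) : Prop :=
  v.f = L.base ∧ v.c = v'.c ∧ v.l = v'.l ∧ v.j = v'.j ∧ L.lf v.c (S.ok pres g v.c v.l) v'.f

def graph (hT : 2 ≤ T) (g : Bool) : SimpleGraph (Vtx W B Q T A Jk Lf) where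
  Adj v v' := (v.f = L.base ∧ v'.f = L.base ∧ S.clash v.c v.l v'.c v'.l) ∨
    S.pend pres L g v v' ∨ S.pend pres L g v' v
  symm := ⟨by
    rintro v v' (⟨h1, h2, h3⟩ | h | h)
    · exact Or.inl ⟨h2, h1, S.clash_symm h3⟩
    · exact Or.inr (Or.inr h)
    · exact Or.inr (Or.inl h)⟩
  loopless := ⟨by
    rintro v (⟨-, -, h3⟩ | h | h)
    · exact S.clash_irrefl hT _ _ h3
    · exact L.not_base _ _ (h.1 ▸ h.2.2.2.2)
    · exact L.not_base _ _ (h.1 ▸ h.2.2.2.2)⟩

noncomputable def sh (β : Asg B Q T A) (v : Vtx W B Q T A Jk Lf) : Vtx W B Q T A Jk Lf :=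
  ⟨v.c, v.l + S.res β v.c, v.j, v.f⟩

theorem sh_inj (β : Asg B Q T A) {v v' : Vtx W B Q T A Jk Lf} :
    S.sh β v = S.sh β v' ↔ v = v' := by
  constructor
  · intro h
    have h1 : v.c = v'.c := (congrArg Vtx.c h :)
    have h2 : v.l + S.res β v.c = v'.l + S.res β v'.c := congrArg Vtx.l h
    rw [h1] at h2
    exact Vtx.ext h1 (add_right_cancel h2) (congrArg Vtx.j h :) (congrArg Vtx.f h :)
  · rintro rfl; rfl

theorem pend_sh (β : Asg B Q T A) {v v' : Vtx W B Q T A Jk Lf}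
    (h : S.ok pres true v.c (S.res β v.c)) :
    S.pend pres L true (S.sh β v) (S.sh β v') ↔ S.pend pres L false v v' := by
  unfold pend sh
  refine and_congr_right fun h1 => and_congr_right fun h2 => ?_
  simp only at h2 ⊢
  rw [propext (S.ok_shift pres h v.l), ← h2, add_left_inj]

theorem dup [Fintype (Vtx W B Q T A Jk Lf)] (hT : 2 ≤ T)
    (Good : Set (Cell W T A) → Asg B Q T A → Prop)
    (hmono : ∀ P P' β, P' ⊆ P → Good P β → Good P' β)
    (hsat : ∀ P β x, Good P β → x ∈ P → S.ok pres true x (S.res β x))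
    (hne : ∀ x : Fin T → Cell W T A, ∃ β, Good (Set.range x) β)
    (hext : ∀ (x : Fin T → Cell W T A) β y, Good (Set.range x) β →
      ∃ β', Good (insert y (Set.range x)) β' ∧ ∀ i, S.res β' (x i) = S.res β (x i)) :
    WLEquiv T (S.graph (Jk := Jk) pres L hT false) (S.graph pres L hT true) := by
  choose β0 hβ0 using hne
  refine equiv_of_family _ _
    (fun x y => ∃ β, Good (Set.range fun i => (x i).c) β ∧ ∀ i, y i = S.sh β (x i)) ?_ ?_
    ⟨fun x i => S.sh (β0 fun i => (x i).c) (x i),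
      fun x i => ⟨(x i).c, (x i).l - S.res (β0 fun i => (x i).c) (x i).c, (x i).j, (x i).f⟩,
      fun x => by funext i; simp [sh], fun x => by funext i; simp [sh]⟩
    (fun x => ⟨_, hβ0 _, fun i => rfl⟩)
  · rintro x y ⟨β, hG, hy⟩ i j
    rw [hy i, hy j, S.sh_inj]
    refine ⟨Iff.rfl, ?_⟩
    have hi := hsat _ _ _ hG ⟨i, rfl⟩
    have hj := hsat _ _ _ hG ⟨j, rfl⟩
    simp only [graph]
    rw [S.pend_sh pres L β hi, S.pend_sh pres L β hj]
    simp only [sh]
    rw [S.clash_shift]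
  · rintro x y ⟨β, hG, hy⟩
    choose β' h1 h2 using fun c => hext _ β c hG
    refine ⟨⟨fun v => S.sh (β' v.c) v,
      fun v => ⟨v.c, v.l - S.res (β' v.c) v.c, v.j, v.f⟩,
      fun v => by simp [sh], fun v => by simp [sh]⟩, fun v i => ⟨β' v.c, ?_, ?_⟩⟩
    · refine hmono _ _ _ ?_ (h1 v.c)
      rintro _ ⟨l, rfl⟩
      by_cases hl : l = i
      · subst hl; simp
      · simp only [update_of_ne hl]
        exact Or.inr ⟨l, rfl⟩
    · intro l
      by_cases hl : l = i
      · subst hl; simp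
      · simp only [update_of_ne hl, hy l, sh, h2 v.c l]

section Spoiler

variable [Fintype (Vtx W B Q T A Jk Lf)] (hT : 2 ≤ T)

def Rel (v v' : Vtx W B Q T A Jk Lf) : Prop :=
  ∃ x y i, Same T (S.graph pres L hT false) (S.graph pres L hT true) x y ∧ x i = v ∧ y i = v'

theorem Rel.nb {v v' : Vtx W B Q T A Jk Lf} (h : S.Rel pres L hT v v') :
    ∃ f : Vtx W B Q T A Jk Lf ≃ Vtx W B Q T A Jk Lf, ∀ u,
      ((S.graph pres L hT false).Adj v u ↔ (S.graph pres L hT true).Adj v' (f u)) ∧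
        S.Rel pres L hT u (f u) := by
  obtain ⟨x, y, i, hs, rfl, rfl⟩ := h
  obtain ⟨f, hf⟩ := hs.ext
  refine ⟨f, fun u => ⟨?_, ⟨_, _, i + 1, hf u (i + 1), by simp, by simp⟩⟩⟩
  have := ((hf u (i + 1)).atom i (i + 1)).2
  simpa [update_of_ne (succ_ne hT i).symm] using this

omit [Fintype (Vtx W B Q T A Jk Lf)] in
theorem core_iff (g : Bool) (v : Vtx W B Q T A Jk Lf) :
    v.f = L.base ↔ ∃ u u', u ≠ u' ∧ (S.graph pres L hT g).Adj v u ∧
      (S.graph pres L hT g).Adj v u' := by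
  constructor
  · intro h
    obtain ⟨j, j', hj, h1, h2⟩ := L.two v.c (S.ok pres g v.c v.l)
    refine ⟨⟨v.c, v.l, v.j, j⟩, ⟨v.c, v.l, v.j, j'⟩, fun h => hj (congrArg Vtx.f h),
      Or.inr (Or.inl ⟨h, rfl, rfl, rfl, h1⟩), Or.inr (Or.inl ⟨h, rfl, rfl, rfl, h2⟩)⟩
  · rintro ⟨u, u', hne, h1, h2⟩
    by_contra hv
    rcases h1 with h1 | h1 | h1
    · exact hv h1.1
    · exact hv h1.1
    rcases h2 with h2 | h2 | h2
    · exact hv h2.1
    · exact hv h2.1
    exact hne (Vtx.ext (h1.2.1.trans h2.2.1.symm) (h1.2.2.1.trans h2.2.2.1.symm)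
      (h1.2.2.2.1.trans h2.2.2.2.1.symm) (h1.1.trans h2.1.symm))

theorem Rel.core {v v' : Vtx W B Q T A Jk Lf} (h : S.Rel pres L hT v v') :
    v.f = L.base ↔ v'.f = L.base := by
  obtain ⟨f, hf⟩ := h.nb
  rw [S.core_iff pres L hT false, S.core_iff pres L hT true]
  constructor
  · rintro ⟨u, u', hne, h1, h2⟩
    exact ⟨f u, f u', fun h => hne (f.injective h), (hf u).1.1 h1, (hf u').1.1 h2⟩
  · rintro ⟨u, u', hne, h1, h2⟩
    refine ⟨f.symm u, f.symm u', fun h => hne (f.symm.injective h), (hf _).1.2 ?_, (hf _).1.2 ?_⟩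
    · simpa using h1
    · simpa using h2

omit [Fintype (Vtx W B Q T A Jk Lf)] in
theorem leaves_card (g : Bool) (v : Vtx W B Q T A Jk Lf) (hv : v.f = L.base) :
    Set.ncard {u | (S.graph pres L hT g).Adj v u ∧ u.f ≠ L.base}
      = Set.ncard {j | L.lf v.c (S.ok pres g v.c v.l) j} := by
  have : {u | (S.graph pres L hT g).Adj v u ∧ u.f ≠ L.base}
      = (fun j => (⟨v.c, v.l, v.j, j⟩ : Vtx W B Q T A Jk Lf)) ''
        {j | L.lf v.c (S.ok pres g v.c v.l) j} := by
    ext u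
    constructor
    · rintro ⟨h1 | h1 | h1, h2⟩
      · exact absurd h1.2.1 h2
      · exact ⟨u.f, h1.2.2.2.2, Vtx.ext h1.2.1 h1.2.2.1 h1.2.2.2.1 rfl⟩
      · exact absurd h1.1 h2
    · rintro ⟨j, hj, rfl⟩
      refine ⟨Or.inr (Or.inl ⟨hv, rfl, rfl, rfl, hj⟩), ?_⟩
      intro h
      simp only at h
      exact L.not_base _ _ (h ▸ hj)
  rw [this]
  exact Set.ncard_image_of_injective _ fun j j' h => congrArg Vtx.f h

theorem Rel.rigid {v v' : Vtx W B Q T A Jk Lf} (h : S.Rel pres L hT v v') (hv : v.f = L.base) :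
    v'.f = L.base ∧ v.c = v'.c ∧ (S.ok pres false v.c v.l ↔ S.ok pres true v'.c v'.l) := by
  have hv' := h.core.1 hv
  refine ⟨hv', L.inj _ _ _ _ ?_⟩
  rw [← S.leaves_card pres L hT false v hv, ← S.leaves_card pres L hT true v' hv']
  obtain ⟨f, hf⟩ := h.nb
  rw [← Set.ncard_image_of_injective _ f.injective]
  congr 1
  ext u
  constructor
  · rintro ⟨u, ⟨h1, h2⟩, rfl⟩
    exact ⟨(hf u).1.1 h1, fun h => h2 ((hf u).2.core.2 h)⟩
  · rintro ⟨h1, h2⟩
    refine ⟨f.symm u, ⟨(hf _).1.2 (by simpa using h1), fun h => h2 ?_⟩, by simp⟩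
    simpa using (hf (f.symm u)).2.core.1 h

end Spoiler

/-- a consistent family of local assignments -/
structure Fam where
  M : (Fin T → Cell W T A) → (Fin T → Loc B Q) → Prop
  ne : ∀ c, ∃ α, M c α
  ok : ∀ c α, M c α → ∀ i, S.ok pres true (c i) (α i)
  nc : ∀ c α, M c α → ∀ i j, ¬ S.clash (c i) (α i) (c j) (α j)
  ext : ∀ c α, M c α → ∀ y, ∃ a, ∀ i, M (update c i y) (update α i a)

theorem spo [Fintype (Vtx W B Q T A Jk Lf)] [Nonempty Jk] (hT : 2 ≤ T)
    (h : WLEquiv T (S.graph (Jk := Jk) pres L hT false) (S.graph pres L hT true)) :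
    Nonempty (S.Fam pres) := by
  obtain ⟨j0⟩ := ‹Nonempty Jk›
  let z : Cell W T A → Vtx W B Q T A Jk Lf := fun c => ⟨c, 0, j0, L.base⟩
  have rig : ∀ (c : Fin T → Cell W T A) y,
      Same T (S.graph pres L hT false) (S.graph pres L hT true) (z ∘ c) y →
      ∀ i, (y i).f = L.base ∧ c i = (y i).c ∧ S.ok pres true (y i).c (y i).l := by
    intro c y hs i
    have := Rel.rigid S pres L hT (v := z (c i)) (v' := y i) ⟨_, _, i, hs, rfl, rfl⟩ rfl
    exact ⟨this.1, this.2.1, this.2.2.1 (S.ok_zero pres _)⟩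
  refine ⟨⟨fun c α => ∃ y, Same T (S.graph pres L hT false) (S.graph pres L hT true) (z ∘ c) y ∧
    ∀ i, α i = (y i).l, ?_, ?_, ?_, ?_⟩⟩
  · intro c
    obtain ⟨y, hy⟩ := h.exists_same (z ∘ c)
    exact ⟨fun i => (y i).l, y, hy, fun i => rfl⟩
  · rintro c α ⟨y, hs, hα⟩ i
    rw [hα i, (rig c y hs i).2.1]
    exact (rig c y hs i).2.2
  · rintro c α ⟨y, hs, hα⟩ i j hc
    have h1 : (S.graph pres L hT true).Adj (y i) (y j) := by
      refine Or.inl ⟨(rig c y hs i).1, (rig c y hs j).1, ?_⟩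
      rwa [← (rig c y hs i).2.1, ← (rig c y hs j).2.1, ← hα i, ← hα j]
    rcases (hs.atom i j).2.2 h1 with h2 | h2 | h2
    · exact S.clash_zero _ _ h2.2.2
    · exact L.not_base _ _ h2.2.2.2.2
    · exact L.not_base _ _ h2.2.2.2.2
  · rintro c α ⟨y, hs, hα⟩ c0
    obtain ⟨f, hf⟩ := hs.ext
    refine ⟨(f (z c0)).l, fun i => ⟨update y i (f (z c0)), ?_, fun l => ?_⟩⟩
    · rw [Function.comp_update]; exact hf _ _
    · by_cases hl : l = i
      · subst hl; simp
      · simp [update_of_ne hl, hα l]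

end Sys

end Vale.Agent.P310
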