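import Vale.Agent.P310.Lift

namespace Vale.Agent.P310

open Function

variable {W B Q A Jk Lf : Type} {T : ℕ} [NeZero T] [AddCommGroup A]

theorem F2_add_self (x : F2) : x + x = 0 := by
  revert x; decide

def upto (r l : Fin T) : F2 := if 1 ≤ l.val ∧ l.val ≤ r.val then 1 else 0

theorem upto_kappa (r i : Fin T) :
    (if i = 0 then (1 : F2) else 0) + (upto r i + upto r (i + 1)) = if i = r then 1 else 0 := by
  have hi := i.isLt
  have hr := r.isLt
  have h1 : (i + 1).val = if i.val + 1 = T then 0 else i.val + 1 := by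
    rw [Fin.val_add, Fin.val_one', Nat.add_mod_mod]
    split_ifs with h
    · rw [h, Nat.mod_self]
    · exact Nat.mod_eq_of_lt (by omega)
  unfold upto
  simp only [Fin.ext_iff, Fin.val_zero, h1]
  split_ifs <;> first | omega | decide

namespace Sys

variable (S : Sys W B Q T A) (pres : Q → Fin T → A → A → Prop)

def Hom (ζ : Asg B Q T A) : Prop :=
  ∀ q i a b, pres q i a b →
    S.lhs q (fun e => ζ.1 e i (a + S.off (S.loc q) e i) (b + S.off (S.loc q) e (i + 1)))
      + ζ.2 q i a + ζ.2 q (i + 1) b = 0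

theorem Hom.add {ζ ζ' : Asg B Q T A} (h : S.Hom pres ζ) (h' : S.Hom pres ζ') :
    S.Hom pres (ζ + ζ') := by
  intro q i a b hp
  have h1 := h q i a b hp
  have h2 := h' q i a b hp
  have : (fun e => (ζ + ζ').1 e i (a + S.off (S.loc q) e i) (b + S.off (S.loc q) e (i + 1)))
      = (fun e => ζ.1 e i (a + S.off (S.loc q) e i) (b + S.off (S.loc q) e (i + 1)))
       + (fun e => ζ'.1 e i (a + S.off (S.loc q) e i) (b + S.off (S.loc q) e (i + 1))) := rfl
  rw [this, map_add]
  simp only [Prod.snd_add, Pi.add_apply]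
  linear_combination h1 + h2

theorem hom_zero : S.Hom pres 0 := by
  intro q i a b _
  have : (fun e => (0 : Asg B Q T A).1 e i (a + S.off (S.loc q) e i)
    (b + S.off (S.loc q) e (i + 1))) = 0 := rfl
  rw [this]; simp

def row (r : Fin T) (η : B → F2) : Asg B Q T A :=
  (fun e i _ _ => if i = r then η e else 0, 0)

def Sat (η : B → F2) (w : W) : Prop := ∀ q, S.loc q = w → S.lhs q η = S.cst q

theorem res_add (β β' : Asg B Q T A) (x : Cell W T A) :
    S.res (β + β') x = S.res β x + S.res β' x := by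
  unfold res
  refine Prod.ext ?_ (Prod.ext ?_ ?_) <;> funext e <;>
    simp only [Prod.fst_add, Prod.snd_add, Pi.add_apply] <;> split_ifs <;> simp

theorem ok_row {η : B → F2} {ζ : Asg B Q T A} {x : Cell W T A} (h : S.Sat η x.w)
    (hζ : S.Hom pres ζ) : S.ok pres true x (S.res (row 0 η + ζ) x) := by
  intro q hq hp
  have h1 := hζ q _ _ _ hp
  have h2 := h q hq
  have h3 : S.lhs q (S.res (row 0 η + ζ) x).1 = S.lhs q ((if x.i = 0 then η else 0) +
      fun e => ζ.1 e x.i (x.a + S.off (S.loc q) e x.i) (x.b + S.off (S.loc q) e (x.i + 1))) := by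
    refine S.lhs_local q _ _ fun e he => ?_
    rw [hq] at he ⊢
    simp only [res, he, if_true, row, Prod.fst_add, Pi.add_apply]
    split_ifs <;> rfl
  rw [h3, map_add]
  simp only [res, hq, if_true, row, Prod.snd_add, Pi.add_apply, true_and, Pi.zero_apply,
    zero_add] at h1 ⊢
  split_ifs
  · linear_combination h1 + h2
  · simp only [map_zero]; linear_combination h1

def zeta (θ : B → F2) (U : B → Fin T → A → F2) : Asg B Q T A :=
  (fun e i a b => θ e * (U e i a + U e (i + 1) b),
    fun q l c => S.lhs q fun e => θ e * U e l (c + S.off (S.loc q) e l))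

theorem hom_zeta (θ : B → F2) (U : B → Fin T → A → F2) : S.Hom pres (S.zeta θ U) := by
  intro q i a b _
  simp only [zeta]
  rw [← map_add, ← map_add]
  have : ((fun e => θ e * (U e i (a + S.off (S.loc q) e i) +
      U e (i + 1) (b + S.off (S.loc q) e (i + 1)))) +
      (fun e => θ e * U e i (a + S.off (S.loc q) e i)) +
      fun e => θ e * U e (i + 1) (b + S.off (S.loc q) e (i + 1))) = 0 := by
    funext e
    simp only [Pi.add_apply, Pi.zero_apply]
    linear_combination F2_add_self (θ e * U e i (a + S.off (S.loc q) e i)) +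
      F2_add_self (θ e * U e (i + 1) (b + S.off (S.loc q) e (i + 1)))
  rw [this, map_zero]

omit [NeZero T] [AddCommGroup A] in
theorem lhs_const {θ : B → F2} {q : Q} (hq : S.lhs q θ = 0) (f : B → F2) (c : F2)
    (h : ∀ e, S.inc (S.loc q) e → f e = c) : S.lhs q (fun e => θ e * f e) = 0 := by
  rw [S.lhs_local q _ (c • θ) fun e he => by simp [h e he, mul_comm], map_smul, hq, smul_zero]

theorem res_zeta (θ : B → F2) (U : B → Fin T → A → F2) (x : Cell W T A) (ξ : Asg B Q T A)
    (hθ : ∀ q, S.loc q = x.w → S.lhs q θ = 0) (hξ : ξ.2 = 0)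
    (hH : ∀ e, S.inc x.w e → (if x.i = 0 then θ e else 0) =
      θ e * (U e x.i (x.a + S.off x.w e x.i) + U e (x.i + 1) (x.b + S.off x.w e (x.i + 1)))
        + ξ.1 e x.i (x.a + S.off x.w e x.i) (x.b + S.off x.w e (x.i + 1)))
    (c c' : F2) (hc : ∀ e, S.inc x.w e → U e x.i (x.a + S.off x.w e x.i) = c)
    (hc' : ∀ e, S.inc x.w e → U e (x.i + 1) (x.b + S.off x.w e (x.i + 1)) = c') :
    S.res (row 0 θ) x = S.res (S.zeta θ U + ξ) x := by
  unfold res
  refine Prod.ext ?_ (Prod.ext ?_ ?_) <;> funext e <;> simp only <;> split_ifs with h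
  · exact hH e h
  · rfl
  · simp only [row, zeta, Prod.snd_add, Pi.add_apply, hξ, Pi.zero_apply, add_zero]
    rw [← h] at hc
    exact (S.lhs_const (hθ e h) _ c hc).symm
  · rfl
  · simp only [row, zeta, Prod.snd_add, Pi.add_apply, hξ, Pi.zero_apply, add_zero]
    rw [← h] at hc'
    exact (S.lhs_const (hθ e h) _ c' hc').symm
  · rfl

theorem res_row (θ : B → F2) (r : Fin T) (x : Cell W T A)
    (hθ : ∀ q, S.loc q = x.w → S.lhs q θ = 0) :
    S.res (row 0 θ) x = S.res (S.zeta θ (fun _ l _ => upto r l) + row r θ) x := by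
  refine S.res_zeta θ _ x _ hθ rfl (fun e _ => ?_) _ _ (fun _ _ => rfl) (fun _ _ => rfl)
  have := upto_kappa r x.i
  simp only [row]
  generalize upto r x.i + upto r (x.i + 1) = s at this ⊢
  generalize θ e = t
  split_ifs at this ⊢ <;> revert s t <;> decide

def Link (x x' : Cell W T A) : Prop :=
  ∃ e, S.inc x.w e ∧ S.inc x'.w e ∧ x.b + S.off x.w e x'.i = x'.a + S.off x'.w e x'.i

theorem res_break (θ : B → F2) (x : Fin T → Cell W T A) (hx : ∀ i, (x i).i = i)
    (hθ : ∀ i q, S.loc q = (x i).w → S.lhs q θ = 0) (r : Fin T)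
    (hr : ¬ S.Link (x r) (x (r + 1))) :
    ∃ ζ, S.Hom pres ζ ∧ ∀ i, S.res (row 0 θ) (x i) = S.res ζ (x i) := by
  classical
  let Z : B → Fin T → A → F2 := fun e l c =>
    if l = r + 1 ∧ S.inc (x r).w e ∧ c = (x r).b + S.off (x r).w e (r + 1) then 1 else 0
  have hZ1 : ∀ i e, S.inc (x i).w e → Z e i ((x i).a + S.off (x i).w e i) = 0 := by
    intro i e he
    refine if_neg ?_
    rintro ⟨rfl, h2, h3⟩
    exact hr ⟨e, h2, he, by rw [hx]; exact h3.symm⟩
  have hZ2 : ∀ i e, S.inc (x i).w e →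
      Z e (i + 1) ((x i).b + S.off (x i).w e (i + 1)) = if i = r then 1 else 0 := by
    intro i e he
    by_cases hi : i = r
    · subst hi; simp [Z, he]
    · simp [Z, hi]
  refine ⟨S.zeta θ (fun e l c => upto r l + Z e l c) + 0, (S.hom_zeta pres _ _).add S pres
    (S.hom_zero pres), fun i => ?_⟩
  refine S.res_zeta θ _ (x i) 0 (hθ i) rfl (fun e he => ?_) (upto r i)
    (upto r (i + 1) + if i = r then 1 else 0) (fun e he => ?_) (fun e he => ?_)
  · rw [hx, hZ1 i e he, hZ2 i e he, ← upto_kappa r i]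
    simp only [Prod.fst_zero, Pi.zero_apply]
    split_ifs <;> linear_combination (exp := 1)
      - F2_add_self (θ e * (upto r i + upto r (i + 1)))
  · rw [hx, hZ1 i e he, add_zero]
  · rw [hx, hZ2 i e he]

theorem dup2 [Fintype (Vtx W B Q T A Jk Lf)] (L : Leaves W T A Lf) (hT : 2 ≤ T)
    (Al : Set (Cell W T A) → (B → F2) → Prop)
    (hmono : ∀ P P' η, P' ⊆ P → Al P η → Al P' η)
    (hsat : ∀ P η x, Al P η → x ∈ P → S.Sat η x.w)
    (hne : ∀ (x : Fin T → Cell W T A) y, ∃ η, Al (insert y (Set.range x)) η)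
    (hcut : ∀ (x : Fin T → Cell W T A) η y, (∀ i, (x i).i = i) →
      (∀ i, S.Link (x i) (x (i + 1))) → Al (Set.range x) η →
      ∃ η', Al (insert y (Set.range x)) η' ∧ ∃ r ζ, S.Hom pres ζ ∧
        ∀ i, S.res (row r (η + η')) (x i) = S.res ζ (x i)) :
    WLEquiv T (S.graph (Jk := Jk) pres L hT false) (S.graph pres L hT true) := by
  refine S.dup pres L hT (fun P β => ∃ η ζ, Al P η ∧ S.Hom pres ζ ∧ β = row 0 η + ζ) ?_ ?_ ?_ ?_
  · rintro P P' β hP ⟨η, ζ, h1, h2, h3⟩
    exact ⟨η, ζ, hmono _ _ _ hP h1, h2, h3⟩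
  · rintro P β x ⟨η, ζ, h1, h2, rfl⟩ hx
    exact S.ok_row pres (hsat _ _ _ h1 hx) h2
  · intro x
    obtain ⟨η, hη⟩ := hne x (x 0)
    exact ⟨_, η, 0, hmono _ _ _ (Set.subset_insert _ _) hη, S.hom_zero pres, rfl⟩
  rintro x β y ⟨η, ζ, h1, h2, rfl⟩
  have hth : ∀ η', Al (insert y (Set.range x)) η' →
      ∀ z ∈ Set.range x, ∀ q, S.loc q = z.w → S.lhs q (η + η') = 0 := by
    intro η' h' z hz q hq
    rw [map_add, hsat _ _ _ h1 hz q hq, hsat _ _ _ h' (Or.inr hz) q hq, F2_add_self]
  suffices h : ∃ η', Al (insert y (Set.range x)) η' ∧ ∃ ζ', S.Hom pres ζ' ∧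
      ∀ z ∈ Set.range x, S.res (row 0 (η + η')) z = S.res ζ' z by
    obtain ⟨η', h3, ζ', h4, h5⟩ := h
    refine ⟨_, ⟨η', ζ + ζ', h3, h2.add S pres h4, rfl⟩, fun i => ?_⟩
    rw [S.res_add, S.res_add, S.res_add, ← h5 _ ⟨i, rfl⟩, add_comm (S.res ζ _), ← add_assoc,
      ← S.res_add]
    congr 2
    refine Prod.ext ?_ (by simp [row])
    funext e l a b
    simp only [row, Prod.fst_add, Pi.add_apply]
    split_ifs
    · linear_combination F2_add_self (η' e)
    · simp
  by_cases hs : Surjective fun i => (x i).i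
  · have hb : Bijective fun i => (x i).i := Finite.surjective_iff_bijective.1 hs
    let σ := Equiv.ofBijective _ hb
    let x' : Fin T → Cell W T A := fun i => x (σ.symm i)
    have hx' : ∀ i, (x' i).i = i := fun i => σ.apply_symm_apply i
    have hr : Set.range x' = Set.range x := σ.symm.surjective.range_comp x
    rw [← hr] at hth h1 ⊢
    by_cases hl : ∀ i, S.Link (x' i) (x' (i + 1))
    · obtain ⟨η', h3, r, ζ', h4, h5⟩ := hcut x' η y hx' hl h1
      refine ⟨η', h3, _, (S.hom_zeta pres (η + η') fun _ l _ => upto r l).add S pres h4, ?_⟩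
      rintro _ ⟨i, rfl⟩
      rw [S.res_row _ r _ (hth η' h3 _ ⟨i, rfl⟩), S.res_add, S.res_add, h5]
    · push Not at hl
      obtain ⟨r, hr⟩ := hl
      obtain ⟨η', h3⟩ := hne x' y
      obtain ⟨ζ', h4, h5⟩ := S.res_break pres (η + η') x' hx'
        (fun i => hth η' h3 _ ⟨i, rfl⟩) r hr
      refine ⟨η', h3, ζ', h4, ?_⟩
      rintro _ ⟨i, rfl⟩
      exact h5 i
  · simp only [Surjective, not_forall, not_exists] at hs
    obtain ⟨r, hr⟩ := hs
    obtain ⟨η', h3⟩ := hne x y
    refine ⟨η', h3, _, S.hom_zeta pres (η + η') fun _ l _ => upto r l, ?_⟩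
    rintro _ ⟨i, rfl⟩
    rw [S.res_row _ r _ (hth η' h3 _ ⟨i, rfl⟩), S.res_add]
    have : S.res (row r (η + η')) (x i) = 0 := by
      unfold res row
      refine Prod.ext ?_ (Prod.ext ?_ ?_) <;> funext e <;> simp [hr i]
    rw [this, add_zero]

def col (w : W) (u : Fin T → A) : Fin T → Cell W T A := fun i => ⟨w, i, u i, u (i + 1)⟩

variable {S pres}

theorem Fam.node (Φ : S.Fam pres) {w : W} {u : Fin T → A} {α : Fin T → Loc B Q}
    (h : Φ.M (col w u) α) {q : Q} (hq : S.loc q = w) (hp : ∀ i, pres q i (u i) (u (i + 1))) :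
    S.lhs q (fun e => ∑ i, (α i).1 e) = S.cst q := by
  have h1 : ∀ i, S.lhs q (α i).1 + (α i).2.1 q + (α (i + 1)).2.1 q
      = if i = 0 then S.cst q else 0 := by
    intro i
    have h2 := Φ.ok _ _ h i q hq (hp i)
    have h3 : (α i).2.2 q = (α (i + 1)).2.1 q := by
      by_contra h4
      exact Φ.nc _ _ h i (i + 1) (Or.inr (Or.inl ⟨rfl, rfl, rfl, q, hq, h4⟩))
    rw [← h3, h2]
    simp [col]
  have h2 := Finset.sum_congr (s₁ := Finset.univ) rfl fun i _ => h1 i
  rw [Finset.sum_add_distrib, Finset.sum_add_distrib, ← map_sum,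
    show ∑ i, (α (i + 1)).2.1 q = ∑ i, (α i).2.1 q from
      Equiv.sum_comp (Equiv.addRight (1 : Fin T)) fun i => (α i).2.1 q, add_assoc,
    F2_add_self, add_zero] at h2
  simp only [Finset.sum_ite_eq', Finset.mem_univ, if_true] at h2
  rw [← h2]
  congr 1
  funext e
  simp

theorem Fam.transfer (Φ : S.Fam pres) (hT : 2 ≤ T) {w w' : W} {u u' : Fin T → A} {e : B}
    (he : S.inc w e) (he' : S.inc w' e) (hu : u + S.off w e = u' + S.off w' e)
    (h : ∀ α, Φ.M (col w u) α → ∑ i, (α i).1 e = 0) :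
    ∀ α, Φ.M (col w' u') α → ∑ i, (α i).1 e = 0 := by
  let H : ℕ → Fin T → Cell W T A := fun j i => if i.val < j then col w' u' i else col w u i
  have key : ∀ j, j ≤ T → ∀ α, Φ.M (H j) α → ∑ i, (α i).1 e = 0 := by
    intro j
    induction j with
    | zero => intro _; exact h
    | succ j ih =>
      intro hj α hα
      let j' : Fin T := ⟨j, hj⟩
      obtain ⟨a, ha⟩ := Φ.ext _ _ hα (col w u j')
      have h1 : update (H (j + 1)) j' (col w u j') = H j := by
        funext i
        by_cases hi : i = j'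
        · subst hi; simp [H, j']
        · have : i.val ≠ j := fun h => hi (Fin.ext h)
          simp only [update_of_ne hi, H]
          have h3 : i.val < j + 1 ↔ i.val < j := by omega
          simp only [h3]
      have h2 := ih (by omega) _ (h1 ▸ ha j')
      have h3 : (α j').1 e = a.1 e := by
        by_contra h4
        refine Φ.nc _ _ (ha (j' + 1)) j' (j' + 1) (Or.inl ⟨e, ?_⟩)
        simp only [update_of_ne (succ_ne hT j').symm, update_self]
        have : H (j + 1) j' = col w' u' j' := if_pos (Nat.lt_succ_self j)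
        rw [this]
        exact ⟨he', he, rfl, (congrFun hu j').symm, (congrFun hu (j' + 1)).symm, h4⟩
      rw [← h2]
      refine Finset.sum_congr rfl fun i _ => ?_
      by_cases hi : i = j'
      · subst hi; simp [h3]
      · simp [update_of_ne hi]
  have : H T = col w' u' := funext fun i => if_pos i.isLt
  exact this ▸ key T le_rfl

end Sys

end Vale.Agent.P310
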