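import Vale.Agent.P310.Defs

namespace Vale.Agent.P310

open Function

inductive Nm (M : TM)
  | st (q : Fin M.q)
  | sym (j : Fin (M.m + 1)) (a : Fin M.g)
  | hd (j : Fin (M.m + 1))
  | lf (j : Fin (M.m + 1))
  | rt (j : Fin (M.m + 1))
  | acc

instance (M : TM) : Finite (Nm M) :=
  Finite.of_surjective (α := Fin M.q ⊕ (Fin (M.m + 1) × Fin M.g) ⊕ Fin (M.m + 1) ⊕
      Fin (M.m + 1) ⊕ Fin (M.m + 1) ⊕ Unit)
    (Sum.elim .st (Sum.elim (fun x => .sym x.1 x.2) (Sum.elim .hd (Sum.elim .lf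
      (Sum.elim .rt fun _ => .acc))))) (by
      rintro (q | ⟨j, a⟩ | j | j | j | _)
      · exact ⟨.inl q, rfl⟩
      · exact ⟨.inr (.inl (j, a)), rfl⟩
      · exact ⟨.inr (.inr (.inl j)), rfl⟩
      · exact ⟨.inr (.inr (.inr (.inl j))), rfl⟩
      · exact ⟨.inr (.inr (.inr (.inr (.inl j)))), rfl⟩
      · exact ⟨.inr (.inr (.inr (.inr (.inr ())))), rfl⟩)

namespace TM

variable (M : TM)

def eff (q : Fin M.q) (s : Fin (M.m + 1) → Fin M.g) :
    Fin M.q × (Fin (M.m + 1) → Fin M.g × Move) :=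
  if (M.out q).isSome then (q, fun j => (s j, .stay)) else M.trans q s

def rd (c : Cfg M) : Fin (M.m + 1) → Fin M.g := fun j => c.tape j (c.head j)

theorem step_eq (c : Cfg M) : M.step c = ⟨(M.eff c.state (M.rd c)).1,
    fun j => update (c.tape j) (c.head j) ((M.eff c.state (M.rd c)).2 j).1,
    fun j => ((M.eff c.state (M.rd c)).2 j).2.apply (c.head j)⟩ := by
  unfold step eff
  split_ifs with h
  · obtain ⟨q, t, hd⟩ := c
    simp [rd, Move.apply]
  · rfl

theorem run_succ (w : List Bool) (t : ℕ) : M.run w (t + 1) = M.step (M.run w t) :=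
  iterate_succ_apply' _ _ _

theorem head_le (w : List Bool) (t : ℕ) (j) : (M.run w t).head j ≤ t := by
  induction t with
  | zero => exact le_rfl
  | succ t ih =>
    rw [run_succ, step_eq]
    simp only
    generalize ((M.eff (M.run w t).state (M.rd (M.run w t))).2 j).2 = mv
    cases mv <;> simp only [Move.apply] <;> omega

theorem run_stay (w : List Bool) {t : ℕ} (h : (M.out (M.run w t).state).isSome) (s : ℕ) :
    M.run w (t + s) = M.run w t := by
  induction s with
  | zero => rfl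
  | succ s ih => rw [← add_assoc, run_succ, ih, step, if_pos h]

def Tru (w : List Bool) : Nm M → ℕ → ℕ → Prop
  | .st q, t, _ => (M.run w t).state = q
  | .sym j a, t, p => (M.run w t).tape j p = a
  | .hd j, t, p => (M.run w t).head j = p
  | .lf j, t, p => (M.run w t).head j < p
  | .rt j, t, p => p < (M.run w t).head j
  | .acc, t, _ => M.out (M.run w t).state = some true

variable {M}

def Act (Bd : ℕ) (F : Nm M → ℕ → ℕ → Prop) (q : Fin M.q) (s : Fin (M.m + 1) → Fin M.g)
    (t p : ℕ) : Prop :=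
  F (.st q) t p ∧ ∀ j, ∃ p' < Bd, F (.hd j) t p' ∧ F (.sym j (s j)) t p'

def Mv (Bd : ℕ) : Move → (ℕ → Prop) → ℕ → Prop
  | .left, G, p => (p = 0 ∧ G p) ∨ (p + 1 < Bd ∧ G (p + 1))
  | .stay, G, p => G p
  | .right, G, p => 0 < p ∧ G (p - 1)

def Step (Bd : ℕ) (w : List Bool) (F : Nm M → ℕ → ℕ → Prop) : Nm M → ℕ → ℕ → Prop
  | .st q', t, p => (t = 0 ∧ M.start = q') ∨
      (0 < t ∧ ∃ x : Fin M.q × (Fin (M.m + 1) → Fin M.g),
        (M.eff x.1 x.2).1 = q' ∧ Act Bd F x.1 x.2 (t - 1) p)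
  | .sym j a, t, p => (t = 0 ∧ (M.init w).tape j p = a) ∨
      (0 < t ∧ (((F (.lf j) (t - 1) p ∨ F (.rt j) (t - 1) p) ∧ F (.sym j a) (t - 1) p) ∨
        (F (.hd j) (t - 1) p ∧ ∃ x : Fin M.q × (Fin (M.m + 1) → Fin M.g),
          ((M.eff x.1 x.2).2 j).1 = a ∧ Act Bd F x.1 x.2 (t - 1) p)))
  | .hd j, t, p => (t = 0 ∧ p = 0) ∨
      (0 < t ∧ ∃ x : Fin M.q × (Fin (M.m + 1) → Fin M.g),
        Act Bd F x.1 x.2 (t - 1) p ∧ Mv Bd ((M.eff x.1 x.2).2 j).2 (F (.hd j) (t - 1)) p)
  | .lf j, t, p => 0 < p ∧ (F (.hd j) t (p - 1) ∨ F (.lf j) t (p - 1))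
  | .rt j, t, p => p + 1 < Bd ∧ (F (.hd j) t (p + 1) ∨ F (.rt j) t (p + 1))
  | .acc, t, p => ∃ q, M.out q = some true ∧ F (.st q) t p

theorem act_tru {Bd : ℕ} {w : List Bool} {q s t p} (h : Act Bd (M.Tru w) q s t p) :
    (M.run w t).state = q ∧ M.rd (M.run w t) = s := by
  refine ⟨h.1, funext fun j => ?_⟩
  obtain ⟨p', -, h1, h2⟩ := h.2 j
  simp only [Tru] at h1 h2
  rw [rd, h1, h2]

theorem step_sound (Bd : ℕ) (w : List Bool) (m : Nm M) (t p : ℕ)
    (h : Step Bd w (M.Tru w) m t p) : M.Tru w m t p := by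
  cases m with
  | st q' =>
    rcases h with ⟨rfl, h⟩ | ⟨h0, x, h1, h2⟩
    · exact h
    · obtain ⟨t, rfl⟩ : ∃ s, t = s + 1 := ⟨t - 1, by omega⟩
      obtain ⟨h3, h4⟩ := act_tru h2
      simp only [Nat.add_sub_cancel] at h3 h4
      simp only [Tru, run_succ, step_eq, h3, h4, h1]
  | sym j a =>
    rcases h with ⟨rfl, h⟩ | ⟨h0, h⟩
    · exact h
    obtain ⟨t, rfl⟩ : ∃ s, t = s + 1 := ⟨t - 1, by omega⟩
    simp only [Nat.add_sub_cancel] at h
    rcases h with ⟨h1, h2⟩ | ⟨h1, x, h2, h3⟩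
    · simp only [Tru] at h1 h2
      simp only [Tru, run_succ, step_eq]
      rw [update_of_ne (by omega), h2]
    · obtain ⟨h3, h4⟩ := act_tru h3
      simp only [Tru] at h1
      simp only [Tru, run_succ, step_eq, h3, h4, h1, update_self, h2]
  | hd j =>
    rcases h with ⟨rfl, rfl⟩ | ⟨h0, x, h1, h2⟩
    · rfl
    obtain ⟨t, rfl⟩ : ∃ s, t = s + 1 := ⟨t - 1, by omega⟩
    simp only [Nat.add_sub_cancel] at h1 h2
    obtain ⟨h3, h4⟩ := act_tru h1
    simp only [Tru, run_succ, step_eq, h3, h4]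
    generalize ((M.eff x.1 x.2).2 j).2 = mv at h2
    cases mv <;> simp only [Mv, Tru, Move.apply] at h2 ⊢ <;> omega
  | lf j => simp only [Step, Tru] at h ⊢; omega
  | rt j => simp only [Step, Tru] at h ⊢; omega
  | acc =>
    obtain ⟨q, h1, h2⟩ := h
    simp only [Tru] at h2 ⊢
    rw [h2, h1]

theorem step_complete (Bd : ℕ) (w : List Bool) (F : Nm M → ℕ → ℕ → Prop)
    (hF : ∀ m t p, t < Bd → p < Bd → Step Bd w F m t p → F m t p) :
    ∀ t, t < Bd → ∀ m p, p < Bd → M.Tru w m t p → F m t p := by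
  have key : ∀ t, t < Bd → (∀ q p, p < Bd → M.Tru w (.st q) t p → F (.st q) t p) →
      (∀ j a p, p < Bd → M.Tru w (.sym j a) t p → F (.sym j a) t p) →
      (∀ j p, p < Bd → M.Tru w (.hd j) t p → F (.hd j) t p) →
      ∀ m p, p < Bd → M.Tru w m t p → F m t p := by
    intro t ht h1 h2 h3 m
    cases m with
    | st q => exact h1 q
    | sym j a => exact h2 j a
    | hd j => exact h3 j
    | lf j =>
      intro p
      induction p with
      | zero => intro _ h; exact absurd h (Nat.not_lt_zero _)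
      | succ p ih =>
        intro hp h
        refine hF _ _ _ ht hp ⟨by omega, ?_⟩
        simp only [Tru, Nat.add_sub_cancel] at h ih h3 ⊢
        by_cases h4 : (M.run w t).head j = p
        · exact Or.inl (h3 j p (by omega) h4)
        · exact Or.inr (ih (by omega) (by omega))
    | rt j =>
      have hh := M.head_le w t j
      have : ∀ d p, p + d + 1 = (M.run w t).head j → F (.rt j) t p := by
        intro d
        induction d with
        | zero =>
          intro p hp
          exact hF _ _ _ ht (by omega) ⟨by omega, Or.inl (h3 j _ (by omega) hp.symm)⟩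
        | succ d ih =>
          intro p hp
          exact hF _ _ _ ht (by omega) ⟨by omega, Or.inr (ih _ (by omega))⟩
      intro p _ h
      simp only [Tru] at h
      exact this ((M.run w t).head j - p - 1) p (by omega)
    | acc =>
      intro p hp h
      exact hF _ _ _ ht hp ⟨_, h, h1 _ p hp rfl⟩
  intro t
  induction t with
  | zero =>
    intro ht
    refine key 0 ht (fun q p hp h => hF _ _ _ ht hp (Or.inl ⟨rfl, h⟩))
      (fun j a p hp h => hF _ _ _ ht hp (Or.inl ⟨rfl, h⟩))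
      (fun j p hp h => hF _ _ _ ht hp (Or.inl ⟨rfl, Eq.symm h⟩))
  | succ t ih =>
    intro ht
    have ih' := ih (by omega)
    have hh := M.head_le w t
    have hact : ∀ p, p < Bd → Act Bd F (M.run w t).state (M.rd (M.run w t)) t p := fun p hp =>
      ⟨ih' _ _ hp rfl, fun j => ⟨(M.run w t).head j, by have := hh j; omega,
        ih' _ _ (by have := hh j; omega) rfl, ih' _ _ (by have := hh j; omega) rfl⟩⟩
    refine key _ ht (fun q p hp h => hF _ _ _ ht hp (Or.inr ⟨by omega, ?_⟩))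
      (fun j a p hp h => hF _ _ _ ht hp (Or.inr ⟨by omega, ?_⟩))
      (fun j p hp h => hF _ _ _ ht hp (Or.inr ⟨by omega, ?_⟩))
    · simp only [Tru, run_succ, step_eq] at h
      exact ⟨(_, _), h, hact p hp⟩
    · simp only [Tru, run_succ, step_eq] at h
      simp only [Nat.add_sub_cancel]
      by_cases h1 : p = (M.run w t).head j
      · subst h1
        rw [update_self] at h
        exact Or.inr ⟨ih' _ _ hp rfl, (_, _), h, hact _ hp⟩
      · rw [update_of_ne h1] at h
        refine Or.inl ⟨?_, ih' _ _ hp h⟩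
        rcases Nat.lt_or_gt_of_ne h1 with h2 | h2
        · exact Or.inr (ih' _ _ hp h2)
        · exact Or.inl (ih' _ _ hp h2)
    · simp only [Tru, run_succ, step_eq] at h
      refine ⟨((M.run w t).state, M.rd (M.run w t)), hact p hp, ?_⟩
      simp only [Nat.add_sub_cancel]
      have h1 := ih' (.hd j) _ (by have := hh j; omega) rfl
      have h2 := hh j
      generalize ((M.eff (M.run w t).state (M.rd (M.run w t))).2 j).2 = mv at h ⊢
      cases mv <;> simp only [Mv, Move.apply] at h ⊢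
      · by_cases h3 : (M.run w t).head j = 0
        · left
          refine ⟨by omega, ?_⟩
          rwa [h3, show 0 = p by omega] at h1
        · right
          refine ⟨by omega, ?_⟩
          rwa [show (M.run w t).head j = p + 1 by omega] at h1
      · rwa [← h]
      · refine ⟨by omega, ?_⟩
        rwa [show (M.run w t).head j = p - 1 by omega] at h1

end TM

end Vale.Agent.P310
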