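import Vale.Agent.P310.Form
import Vale.Agent.P310.Sim

namespace Vale.Agent.P310

open Function

variable {N J : Type} {T n D : ℕ}

def num (r : Fin D → Fin T) (u : Fin T → ZMod n) : ℕ := ∑ l, (u (r l)).val * n ^ l.val

theorem num_eq [NeZero n] (r : Fin D → Fin T) (u : Fin T → ZMod n) :
    num r u = (finFunctionFinEquiv fun l => (⟨(u (r l)).val, ZMod.val_lt _⟩ : Fin n)).val := by
  rw [finFunctionFinEquiv_apply]; rfl

theorem num_lt [NeZero n] (r : Fin D → Fin T) (u : Fin T → ZMod n) : num r u < n ^ D := by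
  rw [num_eq]; exact Fin.isLt _

theorem num_inj [NeZero n] {r : Fin D → Fin T} {u u' : Fin T → ZMod n} (h : num r u = num r u')
    (l : Fin D) : u (r l) = u' (r l) := by
  rw [num_eq, num_eq] at h
  have := congrFun (finFunctionFinEquiv.injective (Fin.ext h)) l
  exact ZMod.val_injective n (congrArg Fin.val this)

theorem num_congr {r : Fin D → Fin T} {u u' : Fin T → ZMod n} (h : ∀ l, u (r l) = u' (r l)) :
    num r u = num r u' := Finset.sum_congr rfl fun l _ => by rw [h l]

theorem num_surj [NeZero n] {r : Fin D → Fin T} (hr : Injective r) (u : Fin T → ZMod n) {p : ℕ}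
    (hp : p < n ^ D) : ∃ u', (∀ x, x ∉ Set.range r → u' x = u x) ∧ num r u' = p := by
  classical
  let f := finFunctionFinEquiv.symm (⟨p, hp⟩ : Fin (n ^ D))
  refine ⟨Function.extend r (fun l => ((f l).val : ZMod n)) u, fun x hx => ?_, ?_⟩
  · exact Function.extend_apply' _ _ _ hx
  · rw [num_eq]
    have : (fun l => (⟨(Function.extend r (fun l => ((f l).val : ZMod n)) u (r l)).val,
        ZMod.val_lt _⟩ : Fin n)) = f := by
      funext l
      refine Fin.ext ?_
      simp only [hr.extend_apply]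
      exact ZMod.val_cast_of_lt (f l).isLt
    rw [this]
    simp [f]

theorem dig_dec (n : ℕ) (hn : 0 < n) : ∀ {D : ℕ} (d d' : Fin D → ℕ) (i : Fin D),
    (∀ l, l < i → d l = 0 ∧ d' l = n - 1) → d' i + 1 = d i → (∀ l, i < l → d' l = d l) →
    ∑ l, d' l * n ^ l.val + 1 = ∑ l, d l * n ^ l.val := by
  intro D
  induction D with
  | zero => intro d d' i; exact i.elim0
  | succ D ih =>
    intro d d' i h1 h2 h3
    rw [Fin.sum_univ_succ, Fin.sum_univ_succ]
    simp only [Fin.val_zero, pow_zero, mul_one, Fin.val_succ, pow_succ, ← mul_assoc,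
      ← Finset.sum_mul]
    induction i using Fin.cases with
    | zero =>
      have : ∑ l : Fin D, d' l.succ * n ^ l.val = ∑ l : Fin D, d l.succ * n ^ l.val :=
        Finset.sum_congr rfl fun l _ => by rw [h3 _ (Fin.succ_pos l)]
      rw [this]; omega
    | succ i =>
      have h4 := ih (fun l => d l.succ) (fun l => d' l.succ) i
        (fun l hl => h1 _ (Fin.succ_lt_succ_iff.2 hl)) h2
        (fun l hl => h3 _ (Fin.succ_lt_succ_iff.2 hl))
      obtain ⟨h5, h6⟩ := h1 0 (Fin.succ_pos i)
      rw [h5, h6, ← h4, add_mul]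
      omega

open Classical in
noncomputable def mask (r : Fin D → Fin T) (i : Fin D) (σ : SignType) : Fin T → SignType :=
  fun x => if ∃ l, l ≤ i ∧ r l = x then σ else 0

theorem mask_off {r : Fin D → Fin T} (i : Fin D) (σ : SignType) {x : Fin T}
    (hx : x ∉ Set.range r) : sg n (mask r i σ) x = 0 := by
  unfold sg mask
  rw [if_neg]
  · simp
  · rintro ⟨l, -, h⟩; exact hx ⟨l, h⟩

theorem mask_cancel (r : Fin D → Fin T) (i : Fin D) :
    sg n (mask r i 1) + sg n (mask r i (-1)) = 0 := by
  funext x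
  simp only [sg, mask, Pi.add_apply]
  split_ifs <;> simp

theorem num_dec [NeZero n] {r : Fin D → Fin T} (hr : Injective r) (u : Fin T → ZMod n)
    (i : Fin D) (h1 : ∀ l, l < i → u (r l) = 0) (h2 : u (r i) ≠ 0) :
    num r (u + sg n (mask r i (-1))) + 1 = num r u := by
  have hm : ∀ l, sg n (mask r i (-1)) (r l) = if l ≤ i then -1 else 0 := by
    intro l
    simp only [sg, mask, hr.eq_iff, exists_eq_right]
    split_ifs <;> simp
  refine dig_dec n (NeZero.pos n) _ _ i (fun l hl => ?_) ?_ (fun l hl => ?_)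
  · simp only [Pi.add_apply, hm, h1 l hl, if_pos hl.le, zero_add, ZMod.val_zero, true_and]
    obtain ⟨m, rfl⟩ : ∃ m, n = m + 1 := ⟨n - 1, by have := NeZero.pos n; omega⟩
    simp
  · simp only [Pi.add_apply, hm, le_refl, if_true]
    have h3 : 1 ≤ (u (r i)).val := by
      rw [Nat.one_le_iff_ne_zero]; simpa using h2
    have h4 : u (r i) + -1 = (((u (r i)).val - 1 : ℕ) : ZMod n) := by
      rw [Nat.cast_sub h3]; simp [sub_eq_add_neg]
    rw [h4, ZMod.val_cast_of_lt (lt_of_le_of_lt (Nat.sub_le _ _) (ZMod.val_lt _))]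
    omega
  · simp only [Pi.add_apply, hm, if_neg (not_le.2 hl), add_zero]

theorem num_pos_iff [NeZero n] {r : Fin D → Fin T} (u : Fin T → ZMod n) :
    num r u = 0 ↔ ∀ l, u (r l) = 0 := by
  constructor
  · intro h l
    have : num r u = num r (0 : Fin T → ZMod n) := by rw [h]; simp [num]
    exact num_inj this l
  · intro h; simp [num, h]

theorem exists_first [NeZero n] {r : Fin D → Fin T} (u : Fin T → ZMod n) (h : 0 < num r u) :
    ∃ i, (∀ l, l < i → u (r l) = 0) ∧ u (r i) ≠ 0 := by
  have h1 : ∃ l, u (r l) ≠ 0 := by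
    by_contra h2
    push Not at h2
    exact h.ne' ((num_pos_iff u).2 h2)
  obtain ⟨i, hi, hmin⟩ := WellFounded.has_min (wellFounded_lt (α := Fin D)) {l | u (r l) ≠ 0} h1
  exact ⟨i, fun l hl => by_contra fun h => hmin l h hl, hi⟩

namespace Fm

variable [NeZero T]

def tt : Fm N J T := .eq 0 0

def ff (z : J) : Fm N J T := .and (.test 0 z true) (.test 0 z false)

def lor (z : J) : List (Fm N J T) → Fm N J T
  | [] => ff z
  | φ :: l => .or φ (lor z l)

def land : List (Fm N J T) → Fm N J T
  | [] => tt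
  | φ :: l => .and φ (land l)

noncomputable def bor (z : J) {ι : Type} [Fintype ι] (f : ι → Fm N J T) : Fm N J T :=
  lor z (Finset.univ.toList.map f)

noncomputable def band {ι : Type} [Fintype ι] (f : ι → Fm N J T) : Fm N J T :=
  land (Finset.univ.toList.map f)

open Classical in
noncomputable def guard (z : J) (p : Prop) (φ : Fm N J T) : Fm N J T := if p then φ else ff z

def exl : List (Fin T) → Fm N J T → Fm N J T
  | [], φ => φ
  | r :: l, φ => .ex r (exl l φ)

noncomputable def isZero (z : J) (r : Fin D → Fin T) : Fm N J T :=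
  band fun l => .test (r l) z true

noncomputable def cond (z : J) (r : Fin D → Fin T) (i : Fin D) : Fm N J T :=
  .and (band fun l => if l < i then .test (r l) z true else tt) (.test (r i) z false)

noncomputable def prev (z : J) (r : Fin D → Fin T) (φ : Fm N J T) : Fm N J T :=
  bor z fun i => .and (cond z r i) (.sh (mask r i (-1)) φ)

noncomputable def next (z : J) (r : Fin D → Fin T) (φ : Fm N J T) : Fm N J T :=
  bor z fun i => .sh (mask r i 1) (.and (cond z r i) φ)

noncomputable def exAll (r : Fin D → Fin T) (φ : Fm N J T) : Fm N J T :=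
  exl (List.ofFn r) φ

variable {R : J → ZMod n → ZMod n → Prop} {I : N → (Fin T → ZMod n) → Prop} {z : J}
  {u : Fin T → ZMod n}

@[simp] theorem sem_tt : Sem R I tt u ↔ True := by simp [tt, Sem]

@[simp] theorem sem_ff : Sem R I (ff z) u ↔ False := by simp [ff, Sem]

theorem sem_lor (l : List (Fm N J T)) : Sem R I (lor z l) u ↔ ∃ φ ∈ l, Sem R I φ u := by
  induction l with
  | nil => simp [lor]
  | cons φ l ih => simp [lor, Sem, ih]

theorem sem_land (l : List (Fm N J T)) : Sem R I (land l) u ↔ ∀ φ ∈ l, Sem R I φ u := by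
  induction l with
  | nil => simp [land]
  | cons φ l ih => simp [land, Sem, ih]

@[simp] theorem sem_bor {ι : Type} [Fintype ι] (f : ι → Fm N J T) :
    Sem R I (bor z f) u ↔ ∃ i, Sem R I (f i) u := by
  simp [bor, sem_lor]

@[simp] theorem sem_band {ι : Type} [Fintype ι] (f : ι → Fm N J T) :
    Sem R I (band f) u ↔ ∀ i, Sem R I (f i) u := by
  simp [band, sem_land]

@[simp] theorem sem_guard (p : Prop) (φ : Fm N J T) :
    Sem R I (guard z p φ) u ↔ p ∧ Sem R I φ u := by
  unfold guard
  split_ifs with h <;> simp [h]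

theorem sem_exl (l : List (Fin T)) (φ : Fm N J T) : ∀ u,
    Sem R I (exl l φ) u ↔ ∃ u', (∀ x, x ∉ l → u' x = u x) ∧ Sem R I φ u' := by
  induction l with
  | nil =>
    intro u
    simp only [exl, List.not_mem_nil, not_false_eq_true, forall_const]
    exact ⟨fun h => ⟨u, fun _ => rfl, h⟩, fun ⟨u', h1, h2⟩ => (funext h1 : u' = u) ▸ h2⟩
  | cons r l ih =>
    intro u
    simp only [exl, Sem, ih, List.mem_cons, not_or]
    constructor
    · rintro ⟨c, u', h1, h2⟩
      exact ⟨u', fun x hx => by rw [h1 x hx.2, update_of_ne hx.1], h2⟩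
    · rintro ⟨u', h1, h2⟩
      refine ⟨u' r, u', fun x hx => ?_, h2⟩
      by_cases h : x = r
      · subst h; simp
      · rw [update_of_ne h, h1 x ⟨h, hx⟩]

variable [NeZero n] (hz : ∀ a b, R z a b ↔ a = 0)
include hz

theorem sem_isZero (r : Fin D → Fin T) : Sem R I (isZero z r) u ↔ num r u = 0 := by
  simp [isZero, Sem, hz, num_pos_iff]

omit [NeZero n] in
theorem sem_cond (r : Fin D → Fin T) (i : Fin D) :
    Sem R I (cond z r i) u ↔ (∀ l, l < i → u (r l) = 0) ∧ u (r i) ≠ 0 := by
  simp only [cond, Sem, sem_band, hz, Bool.false_eq_true, iff_false]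
  refine and_congr_left' (forall_congr' fun l => ?_)
  split_ifs with h <;> simp [h, Sem, hz]

omit hz

def Rep (R : J → ZMod n → ZMod n → Prop) (I : N → (Fin T → ZMod n) → Prop)
    (r r' : Fin D → Fin T) (φ : Fm N J T) (G : ℕ → ℕ → Prop) : Prop :=
  ∀ u, Sem R I φ u ↔ G (num r u) (num r' u)

variable {r r' : Fin D → Fin T} {φ ψ : Fm N J T} {G G' : ℕ → ℕ → Prop}

omit [NeZero n] in
theorem Rep.swap (h : Rep R I r r' φ G) : Rep R I r' r φ fun a b => G b a := h

omit [NeZero n] in
theorem Rep.and (h : Rep R I r r' φ G) (h' : Rep R I r r' ψ G') :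
    Rep R I r r' (.and φ ψ) fun a b => G a b ∧ G' a b := fun u => and_congr (h u) (h' u)

omit [NeZero n] in
theorem Rep.or (h : Rep R I r r' φ G) (h' : Rep R I r r' ψ G') :
    Rep R I r r' (.or φ ψ) fun a b => G a b ∨ G' a b := fun u => or_congr (h u) (h' u)

omit [NeZero n] in
theorem Rep.bor {ι : Type} [Fintype ι] {f : ι → Fm N J T} {g : ι → ℕ → ℕ → Prop}
    (h : ∀ i, Rep R I r r' (f i) (g i)) : Rep R I r r' (bor z f) fun a b => ∃ i, g i a b :=
  fun u => by rw [sem_bor]; exact exists_congr fun i => h i u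

omit [NeZero n] in
theorem Rep.band {ι : Type} [Fintype ι] {f : ι → Fm N J T} {g : ι → ℕ → ℕ → Prop}
    (h : ∀ i, Rep R I r r' (f i) (g i)) : Rep R I r r' (band f) fun a b => ∀ i, g i a b :=
  fun u => by rw [sem_band]; exact forall_congr' fun i => h i u

omit [NeZero n] in
theorem Rep.guard (p : Prop) (h : Rep R I r r' φ G) :
    Rep R I r r' (guard z p φ) fun a b => p ∧ G a b :=
  fun u => by rw [sem_guard, h u]

omit [NeZero T] [NeZero n] in
theorem num_mask (hd : ∀ l l', r l ≠ r' l') (i : Fin D) (σ : SignType) (u : Fin T → ZMod n) :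
    num r' (u + sg n (mask r i σ)) = num r' u :=
  num_congr fun l => by
    rw [Pi.add_apply, mask_off i σ (by rintro ⟨l', h⟩; exact hd _ _ h), add_zero]

include hz

theorem Rep.isZero : Rep R I r r' (isZero z r) fun a _ => a = 0 := fun _ => sem_isZero hz r

theorem Rep.prev (hr : Injective r) (hd : ∀ l l', r l ≠ r' l') (h : Rep R I r r' φ G) :
    Rep R I r r' (prev z r φ) fun a b => 0 < a ∧ G (a - 1) b := by
  intro u
  simp only [Fm.prev, sem_bor, Sem, sem_cond hz, h _, num_mask hd]
  constructor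
  · rintro ⟨i, ⟨h1, h2⟩, h3⟩
    have := num_dec hr u i h1 h2
    exact ⟨by omega, by rwa [← this, Nat.add_sub_cancel]⟩
  · rintro ⟨h1, h2⟩
    obtain ⟨i, h3, h4⟩ := exists_first u h1
    have := num_dec hr u i h3 h4
    exact ⟨i, ⟨h3, h4⟩, by rwa [← this, Nat.add_sub_cancel] at h2⟩

theorem Rep.next (hr : Injective r) (hd : ∀ l l', r l ≠ r' l') (h : Rep R I r r' φ G) :
    Rep R I r r' (next z r φ) fun a b => a + 1 < n ^ D ∧ G (a + 1) b := by
  intro u
  simp only [Fm.next, sem_bor, Sem, sem_cond hz, h _, num_mask hd]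
  constructor
  · rintro ⟨i, ⟨h1, h2⟩, h3⟩
    have := num_dec hr _ i h1 h2
    rw [add_assoc, mask_cancel, add_zero] at this
    rw [this]
    exact ⟨num_lt _ _, h3⟩
  · rintro ⟨h1, h2⟩
    obtain ⟨u', h3, h4⟩ := num_surj hr u h1
    obtain ⟨i, h5, h6⟩ := exists_first (r := r) u' (by omega)
    have h7 := num_dec hr u' i h5 h6
    have h8 : u' + sg n (mask r i (-1)) = u := by
      funext x
      by_cases hx : x ∈ Set.range r
      · obtain ⟨l, rfl⟩ := hx
        exact num_inj (by omega) l
      · rw [Pi.add_apply, mask_off i _ hx, add_zero, h3 x hx]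
    have h9 : u + sg n (mask r i 1) = u' := by
      rw [← h8, add_assoc, add_comm (sg n _), mask_cancel, add_zero]
    refine ⟨i, ?_⟩
    rw [h9, h4]
    exact ⟨⟨h5, h6⟩, h2⟩

omit hz in
theorem Rep.exAll (hr : Injective r) (hd : ∀ l l', r l ≠ r' l') (h : Rep R I r r' φ G) :
    Rep R I r r' (exAll r φ) fun _ b => ∃ a < n ^ D, G a b := by
  intro u
  simp only [Fm.exAll, sem_exl, List.mem_ofFn', h _]
  have key : ∀ u' : Fin T → ZMod n, (∀ x, x ∉ Set.range r → u' x = u x) →
      num r' u' = num r' u := fun u' h =>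
    num_congr fun l => h _ (by rintro ⟨l', h⟩; exact hd _ _ h)
  constructor
  · rintro ⟨u', h1, h2⟩
    exact ⟨_, num_lt _ _, key u' h1 ▸ h2⟩
  · rintro ⟨a, h1, h2⟩
    obtain ⟨u', h3, rfl⟩ := num_surj hr u h1
    exact ⟨u', h3, (key u' h3).symm ▸ h2⟩

end Fm

section Sim

open Fm

variable [NeZero T] (M : TM) (z : J) (tr pr : Fin D → Fin T)
  (inF : Option Bool → Fm (Nm M) J T)

noncomputable def actF (q : Fin M.q) (s : Fin (M.m + 1) → Fin M.g) : Fm (Nm M) J T :=
  .and (.call (.st q))
    (band fun j => exAll pr (.and (.call (.hd j)) (.call (.sym j (s j)))))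

noncomputable def mvF : Move → Fm (Nm M) J T → Fm (Nm M) J T
  | .left, φ => .or (.and (isZero z pr) φ) (next z pr φ)
  | .stay, φ => φ
  | .right, φ => prev z pr φ

noncomputable def initF (j : Fin (M.m + 1)) (a : Fin M.g) : Fm (Nm M) J T :=
  if j = 0 then bor z fun b : Option Bool => guard z ((b.map M.bit).getD M.blank = a) (inF b)
  else guard z (M.blank = a) tt

noncomputable def simDf : Nm M → Fm (Nm M) J T
  | .st q' => .or (.and (isZero z tr) (guard z (M.start = q') tt))
      (prev z tr (bor z fun x : Fin M.q × (Fin (M.m + 1) → Fin M.g) =>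
        guard z ((M.eff x.1 x.2).1 = q') (actF M pr x.1 x.2)))
  | .sym j a => .or (.and (isZero z tr) (initF M z inF j a))
      (prev z tr (.or (.and (.or (.call (.lf j)) (.call (.rt j))) (.call (.sym j a)))
        (.and (.call (.hd j)) (bor z fun x : Fin M.q × (Fin (M.m + 1) → Fin M.g) =>
          guard z (((M.eff x.1 x.2).2 j).1 = a) (actF M pr x.1 x.2)))))
  | .hd j => .or (.and (isZero z tr) (isZero z pr))
      (prev z tr (bor z fun x : Fin M.q × (Fin (M.m + 1) → Fin M.g) =>
        .and (actF M pr x.1 x.2) (mvF M z pr ((M.eff x.1 x.2).2 j).2 (.call (.hd j)))))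
  | .lf j => prev z pr (.or (.call (.hd j)) (.call (.lf j)))
  | .rt j => next z pr (.or (.call (.hd j)) (.call (.rt j)))
  | .acc => bor z fun q => guard z (M.out q = some true) (.call (.st q))

noncomputable def simCode : Code (Nm M) J T := ⟨simDf M z tr pr inF, .acc, z⟩

variable {M z tr pr inF} [NeZero n] {R : J → ZMod n → ZMod n → Prop} {w : List Bool}
  (hz : ∀ a b, R z a b ↔ a = 0) (ht : Injective tr) (hp : Injective pr)
  (hd : ∀ l l', tr l ≠ pr l')
  (hin : ∀ I b u, Sem R I (inF b) u ↔ w[num pr u]? = b)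

include hz ht hp hd hin

theorem rep_sim (F : Nm M → ℕ → ℕ → Prop) (m : Nm M) :
    Rep R (fun m u => F m (num tr u) (num pr u)) tr pr (simDf M z tr pr inF m)
      (TM.Step (n ^ D) w F m) := by
  have hd' : ∀ l l', pr l ≠ tr l' := fun l l' => (hd l' l).symm
  set I : Nm M → (Fin T → ZMod n) → Prop := fun m u => F m (num tr u) (num pr u) with hI
  have hc : ∀ m, Rep R I tr pr (.call m) (F m) := fun m u => Iff.rfl
  have htt : Rep R I tr pr tt fun _ _ => True := fun u => sem_tt
  have hact : ∀ q s, Rep R I tr pr (actF M pr q s) (TM.Act (n ^ D) F q s) := fun q s =>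
    (hc _).and (Rep.band fun j => (Rep.exAll hp hd' ((hc _).and (hc _)).swap).swap)
  have hmv : ∀ mv j, Rep R I tr pr (mvF M z pr mv (.call (.hd j)))
      fun t p => TM.Mv (n ^ D) mv (F (.hd j) t) p := by
    intro mv j
    cases mv
    · exact ((Rep.isZero hz).swap.and (hc _)).or (Rep.next hz hp hd' (hc _).swap).swap
    · exact hc _
    · exact (Rep.prev hz hp hd' (hc _).swap).swap
  have hinit : ∀ j a, Rep R I tr pr (initF M z inF j a) fun _ p => (M.init w).tape j p = a := by
    intro j a u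
    unfold initF TM.init
    by_cases hj : j = 0
    · simp [hj, hin]
    · simp [hj]
  cases m with
  | st q' =>
    intro u
    refine Iff.trans ((((Rep.isZero hz).and (htt.guard (M.start = q'))).or
      (Rep.prev hz ht hd (Rep.bor fun x : Fin M.q × (Fin (M.m + 1) → Fin M.g) =>
        (hact x.1 x.2).guard ((M.eff x.1 x.2).1 = q')))) u) ?_
    simp [TM.Step]
  | sym j a =>
    exact ((Rep.isZero hz).and (hinit j a)).or (Rep.prev hz ht hd
      ((((hc _).or (hc _)).and (hc _)).or ((hc _).and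
        (Rep.bor fun x : Fin M.q × (Fin (M.m + 1) → Fin M.g) => (hact x.1 x.2).guard _))))
  | hd j =>
    exact ((Rep.isZero hz).and (Rep.isZero hz).swap).or (Rep.prev hz ht hd
      (Rep.bor fun x : Fin M.q × (Fin (M.m + 1) → Fin M.g) => (hact x.1 x.2).and (hmv _ j)))
  | lf j => exact (Rep.prev hz hp hd' ((hc _).or (hc _)).swap).swap
  | rt j => exact (Rep.next hz hp hd' ((hc _).or (hc _)).swap).swap
  | acc => exact Rep.bor fun q => (hc _).guard _

theorem sim_iff : (∃ I, (simCode M z tr pr inF).Pre R I ∧ ∀ u, ¬ I .acc u) ↔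
    ∀ t < n ^ D, M.out (M.run w t).state ≠ some true := by
  constructor
  · rintro ⟨I, h1, h2⟩ t htl hacc
    let F : Nm M → ℕ → ℕ → Prop := fun m t p => ∀ u, num tr u = t → num pr u = p → I m u
    have hF : ∀ m t p, t < n ^ D → p < n ^ D → TM.Step (n ^ D) w F m t p → F m t p := by
      rintro m _ _ - - h u rfl rfl
      exact h1 m u (Sem.mono (fun m u h => h u rfl rfl) _ u
        ((rep_sim hz ht hp hd hin F m u).2 h))
    obtain ⟨u, -, hu⟩ := num_surj ht (0 : Fin T → ZMod n) htl
    exact h2 u (TM.step_complete _ w F hF t htl .acc _ (num_lt pr u) hacc u hu rfl)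
  · intro h
    refine ⟨fun m u => M.Tru w m (num tr u) (num pr u), fun m u hm => ?_,
      fun u => h _ (num_lt tr u)⟩
    exact TM.step_sound _ w m _ _ ((rep_sim hz ht hp hd hin (M.Tru w) m u).1 hm)

end Sim

end Vale.Agent.P310
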