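import Vale.Agent.P310.Reg

namespace Vale.Agent.P310

open Function

inductive Tb
  | zero
  | one
  | eq
  | lt
  | diff (d d' : SignType)
  | tabH (d1 d1' d2 d2' : SignType)
  | tabV
  | okA (g : Bool)
  | idx (g : Bool)
  | cceq (o : Bool)
  | cclt (o : Bool)
  deriving Fintype

inductive QF (D : ℕ)
  | rel (j : Tb) (p q : Fin D)
  | relc (j : Tb) (p : Fin D) (c : ℕ)
  | tt
  | not (φ : QF D)
  | and (φ ψ : QF D)
  | or (φ ψ : QF D)

variable {N : Type} {T n D : ℕ}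

namespace QF

def eval (R : Tb → ZMod n → ZMod n → Prop) (v : Fin D → ZMod n) : QF D → Prop
  | .rel j p q => R j (v p) (v q)
  | .relc j p c => R j (v p) c
  | .tt => True
  | .not φ => ¬ eval R v φ
  | .and φ ψ => eval R v φ ∧ eval R v ψ
  | .or φ ψ => eval R v φ ∨ eval R v ψ

def lor : List (QF D) → QF D
  | [] => .not .tt
  | φ :: l => .or φ (lor l)

noncomputable def qor {ι : Type} [Fintype ι] (f : ι → QF D) : QF D :=
  lor (Finset.univ.toList.map f)

theorem eval_qor {ι : Type} [Fintype ι] (f : ι → QF D) (R : Tb → ZMod n → ZMod n → Prop)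
    (v : Fin D → ZMod n) : eval R v (qor f) ↔ ∃ i, eval R v (f i) := by
  have : ∀ l : List (QF D), eval R v (lor l) ↔ ∃ φ ∈ l, eval R v φ := by
    intro l
    induction l with
    | nil => simp [lor, eval]
    | cons φ l ih => simp [lor, eval, ih]
  simp [qor, this]

variable [NeZero T]

def relF (j : Tb) (pol : Bool) (x y : Fin T) : Fm N Tb T :=
  .ex 0 (.ex 1 (.and (.eq 0 x) (.and (.eq 1 y) (.test 0 j pol))))

def const (r : Fin T) : ℕ → Fm N Tb T
  | 0 => .test r .zero true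
  | c + 1 => .sh (fun l => if l = r then -1 else 0) (const r c)

def comp (pr : Fin D → Fin T) (z : Fin T) : Bool → QF D → Fm N Tb T
  | pol, .rel j p q => relF j pol (pr p) (pr q)
  | pol, .relc j p c => .ex z (.and (const z c) (relF j pol (pr p) z))
  | pol, .tt => if pol then Fm.tt else Fm.ff .zero
  | pol, .not φ => comp pr z (!pol) φ
  | pol, .and φ ψ => if pol then .and (comp pr z pol φ) (comp pr z pol ψ)
      else .or (comp pr z pol φ) (comp pr z pol ψ)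
  | pol, .or φ ψ => if pol then .or (comp pr z pol φ) (comp pr z pol ψ)
      else .and (comp pr z pol φ) (comp pr z pol ψ)

variable {R : Tb → ZMod n → ZMod n → Prop} {I : N → (Fin T → ZMod n) → Prop}

theorem sem_relF (hT : 2 ≤ T) (j : Tb) (pol : Bool) {x y : Fin T} (hx0 : x ≠ 0) (hx1 : x ≠ 1)
    (hy1 : y ≠ 1) (hy0 : y ≠ 0) (u : Fin T → ZMod n) :
    Fm.Sem R I (relF j pol x y) u ↔ (R j (u x) (u y) ↔ pol = true) := by
  have h01 : (0 : Fin T) ≠ 1 := by simpa using (succ_ne hT 0).symm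
  simp [relF, Fm.Sem, update_of_ne, hx0, hx1, hy0, hy1, h01]

theorem sem_const (hz : ∀ a b, R .zero a b ↔ a = 0) (r : Fin T) (c : ℕ) :
    ∀ u : Fin T → ZMod n, Fm.Sem R I (const r c) u ↔ u r = c := by
  induction c with
  | zero => intro u; simp [const, Fm.Sem, hz]
  | succ c ih =>
    intro u
    simp only [const, Fm.Sem, ih, Pi.add_apply, sg, if_true, SignType.coe_neg, SignType.coe_one,
      Nat.cast_succ]
    exact add_neg_eq_iff_eq_add

theorem sem_comp (hT : 2 ≤ T) (hz : ∀ a b, R .zero a b ↔ a = 0) {pr : Fin D → Fin T} {z : Fin T}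
    (h0 : ∀ l, pr l ≠ 0) (h1 : ∀ l, pr l ≠ 1) (h2 : ∀ l, pr l ≠ z) (hz0 : z ≠ 0) (hz1 : z ≠ 1)
    (u : Fin T → ZMod n) (φ : QF D) :
    ∀ pol, Fm.Sem R I (comp pr z pol φ) u ↔ (eval R (fun l => u (pr l)) φ ↔ pol = true) := by
  induction φ with
  | rel j p q => intro pol; exact sem_relF hT j pol (h0 _) (h1 _) (h1 _) (h0 _) u
  | relc j p c =>
    intro pol
    simp [comp, Fm.Sem, sem_const hz, sem_relF hT j pol (h0 _) (h1 _) hz1 hz0, eval,
      update_of_ne (h2 p)]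
  | tt => intro pol; cases pol <;> simp [comp, eval]
  | not φ ih => intro pol; cases pol <;> simp [comp, eval, ih]
  | and φ ψ ih1 ih2 => intro pol; cases pol <;> simp [comp, eval, Fm.Sem, ih1, ih2]; tauto
  | or φ ψ ih1 ih2 => intro pol; cases pol <;> simp [comp, eval, Fm.Sem, ih1, ih2]

end QF

noncomputable def tbCode (x : Tb × Bool) : ℕ := (Fintype.equivFin (Tb × Bool) x).val

section AdjQ

open QF

variable (X Y : Fin 6 → Fin D)

def coreQ : QF D :=
  .and (.rel .zero (X 3) (X 3)) (.and (.rel .zero (X 4) (X 4)) (.rel .zero (X 5) (X 5)))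

noncomputable def okQ (g : Bool) : QF D :=
  .or (.rel (.okA g) (X 0) (X 0)) (qor fun x : Tb × Bool =>
    .and (.relc (.idx g) (X 0) (tbCode x))
      (if x.2 then .not (.rel x.1 (X 1) (X 2)) else .rel x.1 (X 1) (X 2)))

noncomputable def hQ : QF D :=
  qor fun d : SignType × SignType × SignType × SignType =>
    .and (.rel (.tabH d.1 d.2.1 d.2.2.1 d.2.2.2) (X 0) (Y 0))
      (.and (.rel (.diff d.1 d.2.1) (X 1) (Y 1)) (.rel (.diff d.2.2.1 d.2.2.2) (X 2) (Y 2)))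

def vQ : QF D := .and (.rel .tabV (X 0) (Y 0)) (.rel .eq (X 2) (Y 1))

def leQ (o : Bool) : QF D :=
  .or (.rel (.cclt o) (X 0) (Y 3)) (.and (.rel (.cceq o) (X 0) (Y 3))
    (.or (.rel .lt (Y 4) (X 1)) (.and (.rel .eq (Y 4) (X 1)) (.not (.rel .lt (X 2) (Y 5))))))

noncomputable def pendQ (g : Bool) : QF D :=
  .and (coreQ X) (.and (.rel .eq (X 0) (Y 0)) (.and (.rel .eq (X 1) (Y 1))
    (.and (.rel .eq (X 2) (Y 2)) (.and (.not (coreQ Y))
      (.or (.and (okQ X g) (leQ X Y true)) (.and (.not (okQ X g)) (leQ X Y false)))))))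

noncomputable def adjQ (g : Bool) : QF D :=
  .or (.and (coreQ X) (.and (coreQ Y) (.or (hQ X Y) (.or (vQ X Y) (vQ Y X)))))
    (.or (pendQ X Y g) (pendQ Y X g))

end AdjQ

namespace Code

variable [NeZero T] (C : Code N Tb T)

abbrev Kap (n' : ℕ) := C.Nd × Fin T × Loc C.Bt C.Eq' × Fin n'

/-- the numerical data of the construction -/
structure Dat (n n' : ℕ) where
  dec : ZMod n ≃ C.Kap n'
  cc : C.Nd × Fin T × Bool → ZMod n
  cc_inj : Injective cc
  cc_ne : ∀ x, cc x ≠ 0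
  code_inj : Injective fun x => (tbCode x : ZMod n)
  two : 2 ≤ n

variable {C} {n' : ℕ} (δ : C.Dat n n')

open Classical in
def eqn (g : Bool) (κ : C.Kap n') (q : C.Eq') : Prop :=
  (C.sys n).lhs q κ.2.2.1.1 + κ.2.2.1.2.1 q + κ.2.2.1.2.2 q
    = if g = true ∧ κ.2.1 = 0 then (C.sys n).cst q else 0

def Dat.R : Tb → ZMod n → ZMod n → Prop
  | .zero, a, _ => a = 0
  | .one, a, _ => a = 1
  | .eq, a, b => a = b
  | .lt, a, b => a.val < b.val
  | .diff d d', a, b => a + (d : ZMod n) = b + (d' : ZMod n)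
  | .tabH d1 d1' d2 d2', a, b => ∃ e, (C.sys n).inc (δ.dec a).1 e ∧ (C.sys n).inc (δ.dec b).1 e ∧
      (δ.dec a).2.1 = (δ.dec b).2.1 ∧
      (C.sys n).off (δ.dec a).1 e (δ.dec a).2.1 = d1 ∧
      (C.sys n).off (δ.dec b).1 e (δ.dec b).2.1 = d1' ∧
      (C.sys n).off (δ.dec a).1 e ((δ.dec a).2.1 + 1) = d2 ∧
      (C.sys n).off (δ.dec b).1 e ((δ.dec b).2.1 + 1) = d2' ∧
      (δ.dec a).2.2.1.1 e ≠ (δ.dec b).2.2.1.1 e
  | .tabV, a, b => (δ.dec a).1 = (δ.dec b).1 ∧ (δ.dec a).2.1 + 1 = (δ.dec b).2.1 ∧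
      ∃ q, (C.sys n).loc q = (δ.dec a).1 ∧ (δ.dec a).2.2.1.2.2 q ≠ (δ.dec b).2.2.1.2.1 q
  | .okA g, a, _ => ∀ q, (C.sys n).loc q = (δ.dec a).1 → eqn (n := n) g (δ.dec a) q
  | .idx g, a, c => ∃ (φ : C.S) (j : Tb) (pol : Bool), φ.1 = .test (δ.dec a).2.1 j pol ∧
      (δ.dec a).1 = .hub φ ∧ c = (tbCode (j, pol) : ZMod n) ∧
      ∀ q, q ≠ .test φ → (C.sys n).loc q = (δ.dec a).1 → eqn (n := n) g (δ.dec a) q
  | .cceq o, a, c => c = δ.cc ((δ.dec a).1, (δ.dec a).2.1, o)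
  | .cclt o, a, c => c.val < (δ.cc ((δ.dec a).1, (δ.dec a).2.1, o)).val

def key (j : ZMod n × ZMod n × ZMod n) : ℕ ×ₗ ℕ ×ₗ ℕ :=
  toLex (j.1.val, toLex (j.2.1.val, j.2.2.val))

theorem key_inj [NeZero n] : Injective (key (n := n)) := by
  rintro ⟨a, b, c⟩ ⟨a', b', c'⟩ h
  simp only [key, toLex_inj, Prod.mk.injEq] at h
  rw [ZMod.val_injective n h.1, ZMod.val_injective n h.2.1, ZMod.val_injective n h.2.2]

open Classical in
noncomputable def Dat.colr (c : Cell C.Nd T (ZMod n)) (p : Prop) : ZMod n × ZMod n × ZMod n :=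
  (δ.cc (c.w, c.i, decide p), c.a, c.b)

noncomputable def Dat.L [NeZero n] : Sys.Leaves C.Nd T (ZMod n) (ZMod n × ZMod n × ZMod n) where
  base := 0
  lf c p j := j ≠ 0 ∧ key j ≤ key (δ.colr c p)
  not_base c p h := h.1 rfl
  two c p := by
    have : Fact (1 < n) := ⟨δ.two⟩
    have h : 0 < (δ.colr c p).1.val := by
      rw [ZMod.val_pos]; exact δ.cc_ne _
    refine ⟨(0, 0, 1), (0, 1, 0), by simp, ⟨by simp, ?_⟩, ⟨by simp, ?_⟩⟩ <;>
    · refine Prod.Lex.toLex_le_toLex.2 (Or.inl ?_)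
      simpa using h
  inj c p c' p' h := by
    classical
    have key' : ∀ x x' : ZMod n × ZMod n × ZMod n, x' ≠ 0 → key x < key x' →
        Set.ncard {j : ZMod n × ZMod n × ZMod n | j ≠ 0 ∧ key j ≤ key x} <
          Set.ncard {j : ZMod n × ZMod n × ZMod n | j ≠ 0 ∧ key j ≤ key x'} := by
      intro x x' h0 hlt
      refine Set.ncard_lt_ncard ⟨fun j hj => ⟨hj.1, hj.2.trans hlt.le⟩, fun hs => ?_⟩
      exact absurd (hs (a := x') ⟨h0, le_rfl⟩).2 (not_le.2 hlt)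
    have hne : ∀ c p, δ.colr c p ≠ 0 := fun c p h => δ.cc_ne _ (congrArg Prod.fst h)
    have h1 : δ.colr c p = δ.colr c' p' := by
      apply key_inj
      rcases lt_trichotomy (key (δ.colr c p)) (key (δ.colr c' p')) with h2 | h2 | h2
      · exact absurd h (key' _ _ (hne _ _) h2).ne
      · exact h2
      · exact absurd h (key' _ _ (hne _ _) h2).ne'
    simp only [Dat.colr, Prod.mk.injEq] at h1
    have h2 := δ.cc_inj h1.1
    simp only [Prod.mk.injEq, decide_eq_decide] at h2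
    exact ⟨Cell.ext h2.1 h2.2.1 h1.2.1 h1.2.2, h2.2.2⟩

abbrev Vx (n n' : ℕ) :=
  Vtx C.Nd C.Bt C.Eq' T (ZMod n) (Fin n') (ZMod n × ZMod n × ZMod n)

def Dat.vx (d : Fin 6 → ZMod n) : Vx (C := C) n n' :=
  ⟨⟨(δ.dec (d 0)).1, (δ.dec (d 0)).2.1, d 1, d 2⟩, (δ.dec (d 0)).2.2.1, (δ.dec (d 0)).2.2.2,
    (d 3, d 4, d 5)⟩

def Dat.vxE : (Fin 6 → ZMod n) ≃ Vx (C := C) n n' where
  toFun := δ.vx
  invFun v := ![δ.dec.symm (v.c.w, v.c.i, v.l, v.j), v.c.a, v.c.b, v.f.1, v.f.2.1, v.f.2.2]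
  left_inv d := by
    funext l
    fin_cases l <;> simp [Dat.vx]
  right_inv v := by
    simp [Dat.vx]

theorem off_sign (w : C.Nd) (e : C.Bt) (l : Fin T) :
    ∃ d : SignType, (C.sys n).off w e l = d := by
  cases w with
  | hub p =>
    cases e with
    | val p' => exact ⟨0, by simp [sys, Prog.sys, Prog.off]⟩
    | tube e t =>
      rcases e with ⟨_ | ⟨φ, b⟩, _ | ⟨j, s⟩⟩
      · exact ⟨0, by simp [sys, Prog.sys, Prog.off, Prog.ts]⟩
      · exact ⟨0, by simp [sys, Prog.sys, Prog.off, Prog.ts, prog]⟩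
      · exact ⟨0, by simp [sys, Prog.sys, Prog.off, Prog.ts]⟩
      · exact ⟨-sf φ.1 b l, by simp [sys, Prog.sys, Prog.off, Prog.ts, prog, sg]⟩
  | rule ρ => exact ⟨0, by simp [sys, Prog.sys, Prog.off]⟩
  | tube e t => exact ⟨0, by simp [sys, Prog.sys, Prog.off]⟩

variable (v : Fin D → ZMod n) (X Y : Fin 6 → Fin D)

theorem eval_core : QF.eval δ.R v (coreQ X) ↔ (δ.vx fun l => v (X l)).f = 0 := by
  simp [coreQ, QF.eval, Dat.R, Dat.vx]

theorem eval_ok (g : Bool) : QF.eval δ.R v (okQ X g) ↔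
    (C.sys n).ok (C.pres δ.R) g (δ.vx fun l => v (X l)).c (δ.vx fun l => v (X l)).l := by
  simp only [okQ, QF.eval, QF.eval_qor]
  constructor
  · rintro (h | ⟨⟨j, pol⟩, ⟨φ, j', pol', h1, h2, h3, h4⟩, h5⟩)
    · exact fun q hq _ => h q hq
    · intro q hq hp
      refine h4 q ?_ hq
      rintro rfl
      obtain ⟨rfl, rfl⟩ : j = j' ∧ pol = pol' := by simpa using δ.code_inj h3
      simp only [pres, Prog.pres, prog, h1, rowOf, passOf, Dat.vx, ne_eq, not_true_eq_false,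
        false_or] at hp
      cases pol <;> simp_all [QF.eval]
  · intro h
    by_cases h0 : δ.R (.okA g) (v (X 0)) (v (X 0))
    · exact Or.inl h0
    right
    simp only [Dat.R, not_forall] at h0
    obtain ⟨q, hq, h1⟩ := h0
    have h2 : ¬ C.pres δ.R q _ _ _ := fun hp => h1 (h q hq hp)
    cases q with
    | rule ρ => exact absurd trivial h2
    | link e t => exact absurd trivial h2
    | test φ =>
      obtain ⟨φ, hφ⟩ := φ
      simp only [pres, Prog.pres, prog, Dat.vx, not_or, not_not] at h2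
      cases φ with
      | test r j pol =>
        simp only [rowOf, passOf] at h2
        refine ⟨(j, pol), ⟨⟨_, hφ⟩, j, pol, by rw [h2.1], hq.symm, rfl, fun q' h3 h4 => ?_⟩, ?_⟩
        · refine h q' h4 ?_
          cases q' with
          | rule ρ => trivial
          | link e t => trivial
          | test φ' =>
            have h5 : (Node.hub φ' : C.Nd) = Node.hub ⟨_, hφ⟩ := h4.trans hq.symm
            cases h5
            exact absurd rfl h3
        · cases pol <;> simp_all [QF.eval]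
      | _ => exact absurd trivial h2.2

theorem eval_h : QF.eval δ.R v (hQ X Y) ↔
    (C.sys n).hclash (δ.vx fun l => v (X l)).c (δ.vx fun l => v (X l)).l
      (δ.vx fun l => v (Y l)).c (δ.vx fun l => v (Y l)).l := by
  simp only [hQ, QF.eval, QF.eval_qor, Dat.R, Sys.hclash, Dat.vx]
  constructor
  · rintro ⟨d, ⟨e, h1, h2, h3, h4, h5, h6, h7, h8⟩, h9, h10⟩
    exact ⟨e, h1, h2, h3, by rw [h4, h5, h9], by rw [h6, h7, h10], h8⟩
  · rintro ⟨e, h1, h2, h3, h4, h5, h6⟩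
    obtain ⟨d1, e1⟩ := off_sign (n := n) (δ.dec (v (X 0))).1 e (δ.dec (v (X 0))).2.1
    obtain ⟨d2, e2⟩ := off_sign (n := n) (δ.dec (v (Y 0))).1 e (δ.dec (v (Y 0))).2.1
    obtain ⟨d3, e3⟩ := off_sign (n := n) (δ.dec (v (X 0))).1 e ((δ.dec (v (X 0))).2.1 + 1)
    obtain ⟨d4, e4⟩ := off_sign (n := n) (δ.dec (v (Y 0))).1 e ((δ.dec (v (Y 0))).2.1 + 1)
    exact ⟨(d1, d2, d3, d4), ⟨e, h1, h2, h3, e1, e2, e3, e4, h6⟩, by rw [← e1, ← e2, h4],
      by rw [← e3, ← e4, h5]⟩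

theorem eval_v : QF.eval δ.R v (vQ X Y) ↔
    (C.sys n).vclash (δ.vx fun l => v (X l)).c (δ.vx fun l => v (X l)).l
      (δ.vx fun l => v (Y l)).c (δ.vx fun l => v (Y l)).l := by
  simp only [vQ, QF.eval, Dat.R, Sys.vclash, Dat.vx]
  tauto

theorem eval_le (o : Bool) : QF.eval δ.R v (leQ X Y o) ↔
    key (δ.vx fun l => v (Y l)).f ≤ key (δ.cc ((δ.vx fun l => v (X l)).c.w,
      (δ.vx fun l => v (X l)).c.i, o), (δ.vx fun l => v (X l)).c.a,
      (δ.vx fun l => v (X l)).c.b) := by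
  have : NeZero n := ⟨by have := δ.two; omega⟩
  simp only [leQ, QF.eval, Dat.R, Dat.vx, key, Prod.Lex.toLex_le_toLex, not_lt,
    (ZMod.val_injective n).eq_iff]

variable [NeZero n]

theorem eval_pend (g : Bool) : QF.eval δ.R v (pendQ X Y g) ↔
    (C.sys n).pend (C.pres δ.R) δ.L g (δ.vx fun l => v (X l)) (δ.vx fun l => v (Y l)) := by
  have h1 : (v (X 0) = v (Y 0) ∧ v (X 1) = v (Y 1) ∧ v (X 2) = v (Y 2)) ↔
      ((δ.vx fun l => v (X l)).c = (δ.vx fun l => v (Y l)).c ∧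
        (δ.vx fun l => v (X l)).l = (δ.vx fun l => v (Y l)).l ∧
        (δ.vx fun l => v (X l)).j = (δ.vx fun l => v (Y l)).j) := by
    simp only [Dat.vx, Cell.mk.injEq, ← δ.dec.injective.eq_iff, Prod.ext_iff]
    tauto
  simp only [pendQ, QF.eval, eval_core, eval_ok, eval_le, Sys.pend, Dat.L, Dat.colr]
  simp only [Dat.R]
  by_cases h : (C.sys n).ok (C.pres δ.R) g (δ.vx fun l => v (X l)).c (δ.vx fun l => v (X l)).l
  · simp only [h, decide_true, true_and, not_true_eq_false, false_and, or_false]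
    tauto
  · simp only [h, decide_false, false_and, not_false_eq_true, true_and, false_or]
    tauto

theorem eval_adj (hT : 2 ≤ T) (g : Bool) : QF.eval δ.R v (adjQ X Y g) ↔
    ((C.sys n).graph (C.pres δ.R) δ.L hT g).Adj
      (δ.vx fun l => v (X l)) (δ.vx fun l => v (Y l)) := by
  simp only [adjQ, QF.eval, eval_core, eval_h, eval_v, eval_pend]
  rfl

end Code

end Vale.Agent.P310
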